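import Crest.Agent.IT.StdInv
import Crest.Agent.T3.Defs

/-! Row 214 (helper25): mollification: a periodic set of finite perimeter is approximated by smooth
periodic functions whose total variation is at most the perimeter. -/

set_option autoImplicit false
open MeasureTheory Set Filter Topology Crest.GeometryTopology.PeriodicPerimeter
open scoped Pointwise Convolution

noncomputable section

namespace Crest.Agent.IT

variable {n : ℕ}

local notation "EE" n => EuclideanSpace ℝ (Fin n)

theorem measurable_cell_fin : IsFiniteMeasure ((volume : Measure (EE n)).restrict (unitCell n)) :=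
  ⟨by rw [Measure.restrict_apply_univ]; exact volume_unitCell_lt_top n⟩

/-- translation invariance of cell integrals of periodic functions -/
theorem setIntegral_cell_add (f : (EE n) → ℝ) (hf : ∀ v, HasIntegerCoords v → ∀ x, f (x + v) = f x)
    (c : EE n) : ∫ x in unitCell n, f x = ∫ x in unitCell n, f (x + c) :=
  setIntegral_cell_comp (LinearIsometryEquiv.refl ℝ _) c (fun _ h => h) (fun _ h => h) f hf

theorem fderiv_periodic' {g : (EE n) → ℝ} (hp : ∀ v, HasIntegerCoords v → ∀ x, g (x + v) = g x) :
    ∀ v, HasIntegerCoords v → ∀ x, fderiv ℝ g (x + v) = fderiv ℝ g x := by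
  intro v hv x
  have : (fun y => g (y + v)) = g := funext fun y => hp v hv y
  rw [← fderiv_comp_add_right v, this]

theorem integral_fderiv_cell {g : (EE n) → ℝ} (hg : ContDiff ℝ 1 g)
    (hp : ∀ v, HasIntegerCoords v → ∀ x, g (x + v) = g x) (v : EE n) :
    ∫ x in unitCell n, fderiv ℝ g x v = 0 := by
  have := measurable_cell_fin (n := n)
  obtain ⟨K, hK0, hK⟩ := bounded_of_periodic (fderiv ℝ g) (hg.continuous_fderiv (by norm_num))
    (fderiv_periodic' hp)
  have hcg : Continuous g := hg.continuous
  have hcf : Continuous (fderiv ℝ g) := hg.continuous_fderiv (by norm_num)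
  have hmain := hasDerivAt_integral_of_dominated_loc_of_deriv_le
    (μ := volume.restrict (unitCell n)) (F := fun (t : ℝ) (x : EE n) => g (x + t • v))
    (F' := fun t x => fderiv ℝ g (x + t • v) v) (x₀ := (0:ℝ)) (s := univ)
    (bound := fun _ => K * ‖v‖) univ_mem
    (Eventually.of_forall fun t => (hcg.comp (by fun_prop)).aestronglyMeasurable)
    (by
      simp only [zero_smul, add_zero]
      exact integrableOn_cell hcg (le_refl (unitCell n)))
    (by
      have : Continuous fun x : EE n => fderiv ℝ g (x + (0:ℝ) • v) v :=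
        (hcf.comp (by fun_prop)).clm_apply continuous_const
      exact this.aestronglyMeasurable)
    (Eventually.of_forall fun x t _ => (ContinuousLinearMap.le_opNorm _ _).trans
      (mul_le_mul_of_nonneg_right (hK _) (norm_nonneg _)))
    (integrable_const _)
    (Eventually.of_forall fun x t _ => by
      have h1 : HasFDerivAt g (fderiv ℝ g (x + t • v)) (x + t • v) :=
        ((hg.differentiable (by norm_num)) _).hasFDerivAt
      have h2 : HasDerivAt (fun t : ℝ => x + t • v) v t := by
        simpa using ((hasDerivAt_id t).smul_const v).const_add x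
      exact h1.comp_hasDerivAt t h2)
  have h2 := hmain.2
  have h3 : (fun t : ℝ => ∫ x in unitCell n, g (x + t • v)) = fun _ => ∫ x in unitCell n, g x := by
    funext t
    exact (setIntegral_cell_add g hp (t • v)).symm
  rw [h3] at h2
  have h4 := h2.unique (hasDerivAt_const (0:ℝ) _)
  simpa using h4

/-- integration by parts on the torus -/
theorem ibp {f : (EE n) → ℝ} {φ : (EE n) → (EE n)} (hf : ContDiff ℝ 1 f) (hφ : ContDiff ℝ 1 φ)
    (hfp : ∀ v, HasIntegerCoords v → ∀ x, f (x + v) = f x)
    (hφp : ∀ v, HasIntegerCoords v → ∀ x, φ (x + v) = φ x) :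
    ∫ x in unitCell n, (∑ i, fderiv ℝ f x (EuclideanSpace.single i 1) * φ x i + f x * divergence φ x) = 0 := by
  have hcf : Continuous (fderiv ℝ f) := hf.continuous_fderiv (by norm_num)
  have hcφ : Continuous (fderiv ℝ φ) := hφ.continuous_fderiv (by norm_num)
  have hi : ∀ i : Fin n, ContDiff ℝ 1 fun x => φ x i := fun i => by fun_prop
  have hd : ∀ i x, fderiv ℝ (fun x => f x * φ x i) x (EuclideanSpace.single i 1)
      = fderiv ℝ f x (EuclideanSpace.single i 1) * φ x i + f x * fderiv ℝ φ x (EuclideanSpace.single i 1) i := by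
    intro i x
    have h1 : HasFDerivAt f (fderiv ℝ f x) x := ((hf.differentiable (by norm_num)) _).hasFDerivAt
    have h2 : HasFDerivAt (fun x => φ x i) ((EuclideanSpace.proj i : (EE n) →L[ℝ] ℝ).comp (fderiv ℝ φ x)) x :=
      (EuclideanSpace.proj i : (EE n) →L[ℝ] ℝ).hasFDerivAt.comp x ((hφ.differentiable (by norm_num)) x).hasFDerivAt
    have h3 : HasFDerivAt (fun x => f x * φ x i) _ x := h1.mul h2
    rw [h3.fderiv]
    simp
    ring
  have h0 : ∀ i : Fin n, ∫ x in unitCell n, fderiv ℝ (fun x => f x * φ x i) x (EuclideanSpace.single i 1) = 0 :=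
    fun i => integral_fderiv_cell (hf.mul (hi i)) (fun v hv x => by rw [hfp v hv x, hφp v hv x]) _
  have h1 : (fun x => ∑ i, fderiv ℝ f x (EuclideanSpace.single i 1) * φ x i + f x * divergence φ x)
      = fun x => ∑ i, fderiv ℝ (fun x => f x * φ x i) x (EuclideanSpace.single i 1) := by
    funext x
    simp only [hd, Finset.sum_add_distrib]
    congr 1
    unfold divergence
    rw [Finset.mul_sum]
  rw [h1, integral_finsetSum _ fun i _ => ?_]
  · exact Finset.sum_eq_zero fun i _ => h0 i
  · apply integrableOn_cell _ (le_refl (unitCell n))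
    have : ContDiff ℝ 1 (fun x => f x * φ x i) := hf.mul (hi i)
    exact (this.continuous_fderiv (by norm_num)).clm_apply continuous_const

open Crest.Agent.T3 in
/-- duality: the total variation of a `C²` periodic function is bounded by its weak variation -/
theorem tv_le {f : (EE n) → ℝ} (hf : ContDiff ℝ 2 f)
    (hfp : ∀ v, HasIntegerCoords v → ∀ x, f (x + v) = f x) {c : ℝ}
    (hc : ∀ φ : (EE n) → (EE n), IsAdmissibleField φ → ∫ x in unitCell n, f x * divergence φ x ≤ c) :
    ∫ x in unitCell n, gr f x ≤ c := by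
  have := measurable_cell_fin (n := n)
  have hf1 : ContDiff ℝ 1 f := hf.of_le (by norm_num)
  have hdi : ∀ i : Fin n, ContDiff ℝ 1 fun x => fderiv ℝ f x (EuclideanSpace.single i 1) := fun i =>
    (hf.fderiv_right (m := 1) (by norm_num)).clm_apply contDiff_const
  have hgrc : Continuous (gr f) := by
    unfold gr
    exact (continuous_finsetSum _ fun i _ => (hdi i).continuous.pow 2).sqrt
  set V := (volume (unitCell n)).toReal with hV
  have key : ∀ δ : ℝ, 0 < δ → ∫ x in unitCell n, gr f x ≤ c + δ * V := by
    intro δ hδ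
    set N : (EE n) → ℝ := fun x => Real.sqrt (∑ i, (fderiv ℝ f x (EuclideanSpace.single i 1)) ^ 2 + δ ^ 2) with hN
    have hpos : ∀ x, 0 < ∑ i, (fderiv ℝ f x (EuclideanSpace.single i 1)) ^ 2 + δ ^ 2 := fun x => by positivity
    have hNpos : ∀ x, 0 < N x := fun x => Real.sqrt_pos.2 (hpos x)
    have hNc : ContDiff ℝ 1 N :=
      ((ContDiff.sum fun i _ => (hdi i).pow 2).add contDiff_const).sqrt fun x => (hpos x).ne'
    set φ : (EE n) → (EE n) := fun x =>
      WithLp.toLp 2 (fun i => -(fderiv ℝ f x (EuclideanSpace.single i 1) / N x)) with hφ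
    have hφc : ContDiff ℝ 1 φ := by
      rw [contDiff_euclidean]
      intro i
      exact ((hdi i).div hNc fun x => (hNpos x).ne').neg
    have hφp : ∀ v, HasIntegerCoords v → ∀ x, φ (x + v) = φ x := by
      intro v hv x
      simp only [hφ, hN, fderiv_periodic' hfp v hv x]
    have hgr2 : ∀ x, gr f x ^ 2 = ∑ i, (fderiv ℝ f x (EuclideanSpace.single i 1)) ^ 2 := fun x =>
      Real.sq_sqrt (Finset.sum_nonneg fun i _ => sq_nonneg _)
    have hgr0 : ∀ x, 0 ≤ gr f x := fun x => Real.sqrt_nonneg _
    have hN2 : ∀ x, N x ^ 2 = gr f x ^ 2 + δ ^ 2 := fun x => by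
      rw [hgr2]; exact Real.sq_sqrt (hpos x).le
    have hφn : ∀ x, ‖φ x‖ ≤ 1 := by
      intro x
      rw [EuclideanSpace.norm_eq]
      apply Real.sqrt_le_one.2
      have : ∑ i, ‖φ x i‖ ^ 2 = gr f x ^ 2 / N x ^ 2 := by
        rw [hgr2, Finset.sum_div]
        refine Finset.sum_congr rfl fun i _ => ?_
        change ‖-(fderiv ℝ f x (EuclideanSpace.single i 1) / N x)‖ ^ 2 = _
        rw [norm_neg, Real.norm_eq_abs, sq_abs, div_pow]
      rw [this, div_le_one (by have := hNpos x; positivity), hN2]
      nlinarith
    have hadm : IsAdmissibleField φ := ⟨hφc, hφp, hφn⟩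
    have h1 := hc φ hadm
    have h2 := ibp hf1 hφc hfp hφp
    have hs : ∀ x, ∑ i, fderiv ℝ f x (EuclideanSpace.single i 1) * φ x i = -(gr f x ^ 2 / N x) := by
      intro x
      rw [hgr2, Finset.sum_div, ← Finset.sum_neg_distrib]
      refine Finset.sum_congr rfl fun i _ => ?_
      change _ * (-(fderiv ℝ f x (EuclideanSpace.single i 1) / N x)) = _
      ring
    simp only [hs] at h2
    have hcg : Continuous fun x => gr f x ^ 2 / N x :=
      (hgrc.pow 2).div hNc.continuous fun x => (hNpos x).ne'
    have hcd : Continuous fun x => f x * divergence φ x := hf.continuous.mul (continuous_div hφc)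
    have hcgn : Continuous fun x => -(gr f x ^ 2 / N x) := hcg.neg
    rw [integral_add (integrableOn_cell hcgn (le_refl _)) (integrableOn_cell hcd (le_refl _)),
      integral_neg] at h2
    have hcadd : Continuous fun x => gr f x ^ 2 / N x + δ := hcg.add continuous_const
    have h3 : ∫ x in unitCell n, gr f x ≤ ∫ x in unitCell n, (gr f x ^ 2 / N x + δ) := by
      apply setIntegral_mono_on (integrableOn_cell hgrc (le_refl _))
        (integrableOn_cell hcadd (le_refl _)) (measurableSet_unitCell n)
      intro x _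
      have hNx := hNpos x
      have h5 : N x ≤ gr f x + δ := by
        have := hN2 x
        have h6 := hgr0 x
        nlinarith
      rw [← sub_le_iff_le_add, le_div_iff₀ hNx]
      by_cases h7 : gr f x ≤ δ
      · have : (gr f x - δ) * N x ≤ 0 := mul_nonpos_of_nonpos_of_nonneg (by linarith) hNx.le
        nlinarith [sq_nonneg (gr f x)]
      · push Not at h7
        nlinarith [mul_le_mul_of_nonneg_left h5 (by linarith : (0:ℝ) ≤ gr f x - δ)]
    rw [integral_add (integrableOn_cell hcg (le_refl _)) (integrableOn_cell continuous_const (le_refl _))] at h3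
    have h4 : ∫ x in unitCell n, (δ : ℝ) = δ * V := by
      simp [Measure.real, hV, mul_comm]
    rw [h4] at h3
    linarith
  by_contra hlt
  push Not at hlt
  have hVn : 0 ≤ V := ENNReal.toReal_nonneg
  set d := (∫ x in unitCell n, gr f x) - c with hd
  have hd0 : 0 < d := by linarith
  have h1 := key (d / (2 * (V + 1))) (by positivity)
  have h2 : d / (2 * (V + 1)) * V < d := by
    rw [div_mul_eq_mul_div, div_lt_iff₀ (by positivity)]
    nlinarith
  linarith

/-- one smooth approximation -/
theorem smooth_weak_le {E : Set (EE n)} (hE : MeasurableSet E) (hp : IsLatticePeriodic E)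
    (hfin : periodicPerimeter E ≠ ⊤) (ρ : (EE n) → ℝ) (hρc : Continuous ρ) (hρ0 : ∀ x, 0 ≤ ρ x)
    (hρi : Integrable ρ) (hρ1 : ∫ x, ρ x = 1) {φ : (EE n) → (EE n)} (hφ : IsAdmissibleField φ) :
    ∫ x in unitCell n, (∫ y, ρ y * E.indicator (fun _ => (1:ℝ)) (x - y)) * divergence φ x
      ≤ (periodicPerimeter E).toReal := by
  have := measurable_cell_fin (n := n)
  have hdc := continuous_div hφ.1
  have hdp : ∀ v, HasIntegerCoords v → ∀ x, divergence φ (x + v) = divergence φ x := by
    intro v hv x
    unfold divergence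
    rw [fderiv_periodic hφ.2.1 v hv x]
  obtain ⟨C, hC0, hC⟩ := bounded_of_periodic (divergence φ) hdc hdp
  set χ : (EE n) → ℝ := E.indicator (fun _ => (1:ℝ)) with hχ
  have hχm : Measurable χ := measurable_const.indicator hE
  have hχ1 : ∀ x, |χ x| ≤ 1 := by
    intro x
    by_cases hx : x ∈ E
    · simp [hχ, hx]
    · simp [hχ, hx]
  have hswap : ∫ x in unitCell n, (∫ y, ρ y * χ (x - y)) * divergence φ x
      = ∫ y, ρ y * ∫ x in unitCell n, χ (x - y) * divergence φ x := by
    have e1 : ∀ x, (∫ y, ρ y * χ (x - y)) * divergence φ x = ∫ y, ρ y * χ (x - y) * divergence φ x :=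
      fun x => (integral_mul_const _ _).symm
    have e2 : ∀ y, (ρ y * ∫ x in unitCell n, χ (x - y) * divergence φ x)
        = ∫ x in unitCell n, ρ y * χ (x - y) * divergence φ x := fun y => by
      rw [← integral_const_mul]
      simp only [mul_assoc]
    simp only [e1, e2]
    apply integral_integral_swap
    have hb : Integrable (fun p : (EE n) × (EE n) => C * ρ p.2)
        ((volume.restrict (unitCell n)).prod volume) :=
      (integrable_const C).mul_prod hρi
    refine hb.mono' ?_ (Eventually.of_forall ?_)
    · apply Measurable.aestronglyMeasurable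
      have m1 : Measurable fun p : (EE n) × (EE n) => χ (p.1 - p.2) := hχm.comp (measurable_fst.sub measurable_snd)
      exact ((hρc.measurable.comp measurable_snd).mul m1).mul (hdc.measurable.comp measurable_fst)
    · rintro ⟨x, y⟩
      simp only [Function.uncurry, Real.norm_eq_abs, abs_mul, abs_of_nonneg (hρ0 y)]
      calc ρ y * |χ (x - y)| * |divergence φ x| ≤ ρ y * 1 * C :=
            mul_le_mul (mul_le_mul_of_nonneg_left (hχ1 _) (hρ0 y)) (hC x) (abs_nonneg _)
              (by have := hρ0 y; positivity)
        _ = C * ρ y := by ring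
  rw [hswap]
  have hin : ∀ y, ∫ x in unitCell n, χ (x - y) * divergence φ x ≤ (periodicPerimeter E).toReal := by
    intro y
    have hper : ∀ v, HasIntegerCoords v → ∀ x, χ (x + v - y) * divergence φ (x + v) = χ (x - y) * divergence φ x := by
      intro v hv x
      rw [hdp v hv x, show x + v - y = (x - y) + v by abel]
      congr 1
      by_cases hx : x - y ∈ E
      · rw [hχ, indicator_of_mem hx, indicator_of_mem ((hp v hv _).2 hx)]
      · rw [hχ, indicator_of_notMem hx, indicator_of_notMem fun h => hx ((hp v hv _).1 h)]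
    rw [setIntegral_cell_add _ hper y]
    have hadm : IsAdmissibleField (fun x => φ (x + y)) := by
      refine ⟨hφ.1.comp (contDiff_id.add contDiff_const), ?_, fun x => hφ.2.2 _⟩
      intro v hv x
      change φ (x + v + y) = φ (x + y)
      rw [show x + v + y = (x + y) + v by abel]
      exact hφ.2.1 v hv _
    have hdiv : ∀ x, divergence (fun x => φ (x + y)) x = divergence φ (x + y) := by
      intro x
      unfold divergence
      rw [fderiv_comp_add_right]
    have h1 : (∫ x in unitCell n, χ (x + y - y) * divergence φ (x + y))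
        = ∫ x in E ∩ unitCell n, divergence (fun x => φ (x + y)) x := by
      rw [inter_comm, ← setIntegral_indicator hE]
      apply integral_congr_ae
      refine Eventually.of_forall fun x => ?_
      simp only [add_sub_cancel_right]
      by_cases hx : x ∈ E
      · simp [hχ, hx, ← hdiv]
      · simp [hχ, hx]
    rw [h1]
    have h2 : ENNReal.ofReal (∫ x in E ∩ unitCell n, divergence (fun x => φ (x + y)) x) ≤ periodicPerimeter E :=
      le_iSup (fun φ : {φ : (EE n) → (EE n) // IsAdmissibleField φ} =>
        ENNReal.ofReal (∫ x in E ∩ unitCell n, divergence φ.1 x)) ⟨_, hadm⟩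
    exact (ENNReal.ofReal_le_iff_le_toReal hfin).1 h2
  have hP0 : 0 ≤ (periodicPerimeter E).toReal := ENNReal.toReal_nonneg
  calc ∫ y, ρ y * ∫ x in unitCell n, χ (x - y) * divergence φ x
      ≤ ∫ y, ρ y * (periodicPerimeter E).toReal := by
        by_cases hint : Integrable (fun y => ρ y * ∫ x in unitCell n, χ (x - y) * divergence φ x)
        · exact integral_mono hint (hρi.mul_const _) fun y => mul_le_mul_of_nonneg_left (hin y) (hρ0 y)
        · rw [integral_undef hint]
          exact integral_nonneg fun y => mul_nonneg (hρ0 y) hP0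
    _ = (periodicPerimeter E).toReal := by rw [integral_mul_const, hρ1, one_mul]

/-- the bump functions -/
def bmp (n : ℕ) (j : ℕ) : ContDiffBump (0 : EE n) where
  rIn := 1 / ((j : ℝ) + 1)
  rOut := 2 / ((j : ℝ) + 1)
  rIn_pos := by positivity
  rIn_lt_rOut := by
    apply div_lt_div_of_pos_right (by norm_num) (by positivity)

open Crest.Agent.T3 in
theorem approx_exists {E : Set (EE n)} (hE : MeasurableSet E) (hp : IsLatticePeriodic E)
    (hfin : periodicPerimeter E ≠ ⊤) :
    ∃ f, Approx E (periodicPerimeter E).toReal f := by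
  set χ : (EE n) → ℝ := E.indicator (fun _ => (1:ℝ)) with hχ
  have hχm : Measurable χ := measurable_const.indicator hE
  have hχ01 : ∀ x, 0 ≤ χ x ∧ χ x ≤ 1 := by
    intro x
    by_cases hx : x ∈ E
    · simp [hχ, hx]
    · simp [hχ, hx]
  have hχ1 : ∀ x, ‖χ x‖ ≤ 1 := fun x => by
    rw [Real.norm_eq_abs, abs_of_nonneg (hχ01 x).1]; exact (hχ01 x).2
  have hloc : LocallyIntegrable χ volume := by
    have : LocallyIntegrable (fun _ : EE n => (1:ℝ)) volume := continuous_const.locallyIntegrable
    exact this.mono hχm.aestronglyMeasurable (Eventually.of_forall fun x => by simpa using hχ1 x)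
  set ρ : ℕ → (EE n) → ℝ := fun j => (bmp n j).normed volume with hρ
  have hρ0 : ∀ j x, 0 ≤ ρ j x := fun j x => (bmp n j).nonneg_normed x
  have hρc : ∀ j, Continuous (ρ j) := fun j => (bmp n j).continuous_normed
  have hρi : ∀ j, Integrable (ρ j) := fun j => (bmp n j).integrable_normed
  have hρ1 : ∀ j, ∫ x, ρ j x = 1 := fun j => (bmp n j).integral_normed
  set f : ℕ → (EE n) → ℝ := fun j x => ∫ y, ρ j y * χ (x - y) with hf
  have hfc : ∀ j, f j = ((bmp n j).normed volume ⋆[ContinuousLinearMap.lsmul ℝ ℝ, volume] χ) := by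
    intro j
    funext x
    rfl
  have hsm : ∀ j, ContDiff ℝ 2 (f j) := by
    intro j
    rw [hfc]
    exact (bmp n j).hasCompactSupport_normed.contDiff_convolution_left _ (bmp n j).contDiff_normed hloc
  have hper : ∀ j v, HasIntegerCoords v → ∀ x, f j (x + v) = f j x := by
    intro j v hv x
    simp only [hf]
    congr 1
    funext y
    rw [show x + v - y = (x - y) + v by abel]
    congr 1
    by_cases hx : x - y ∈ E
    · rw [hχ, indicator_of_mem hx, indicator_of_mem ((hp v hv _).2 hx)]
    · rw [hχ, indicator_of_notMem hx, indicator_of_notMem fun h => hx ((hp v hv _).1 h)]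
  refine ⟨f, hsm, hper, ?_, ?_, ?_⟩
  · intro j x
    constructor
    · exact integral_nonneg fun y => mul_nonneg (hρ0 j y) (hχ01 _).1
    · rw [← hρ1 j]
      apply integral_mono_of_nonneg (Eventually.of_forall fun y => mul_nonneg (hρ0 j y) (hχ01 _).1) (hρi j)
      exact Eventually.of_forall fun y => mul_le_of_le_one_right (hρ0 j y) (hχ01 _).2
  · simp only [hfc]
    apply ContDiffBump.ae_convolution_tendsto_right_of_locallyIntegrable (K := 2) _ _ hloc
    · change Tendsto (fun j : ℕ => (2:ℝ) / ((j : ℝ) + 1)) atTop (𝓝 0)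
      exact tendsto_const_nhds.div_atTop (tendsto_atTop_add_const_right _ _ tendsto_natCast_atTop_atTop)
    · refine Eventually.of_forall fun j => ?_
      change (2:ℝ) / ((j : ℝ) + 1) ≤ 2 * (1 / ((j : ℝ) + 1))
      apply le_of_eq; ring
  · intro j
    apply tv_le (hsm j) (hper j)
    intro φ hφ
    exact smooth_weak_le hE hp hfin (ρ j) (hρc j) (hρ0 j) (hρi j) (hρ1 j) hφ

end Crest.Agent.IT
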