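import Crest.Agent.IT.StdFinal
import Crest.Agent.T3.RigDefs

/-! Row 214 (helper25): the centred standard sets `stdB` of T3/RigDefs: volumes and perimeters. -/

set_option autoImplicit false
open MeasureTheory Set Filter Topology Crest.GeometryTopology.PeriodicPerimeter
open Crest.Agent.T3 (fold rem Shape stdB stdP stdOk)

noncomputable section

namespace Crest.Agent.IT

local notation "E3" => EuclideanSpace ℝ (Fin 3)

theorem fold_half (x : ℝ) : fold x / 2 = |x - round x| := by unfold fold; ring

theorem fold_half_le (x : ℝ) (a : ℤ) : fold x / 2 ≤ |x - a| := by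
  rw [fold_half]; exact round_le x a

theorem fold_half_nonneg (x : ℝ) : 0 ≤ fold x / 2 := by rw [fold_half]; exact abs_nonneg _

theorem fold_half_sq (x : ℝ) : (fold x / 2) ^ 2 = (x - round x) ^ 2 := by rw [fold_half, sq_abs]

theorem fold_half_sq_le (x : ℝ) (a : ℤ) : (fold x / 2) ^ 2 ≤ (x - a) ^ 2 := by
  rw [← sq_abs (x - a)]
  exact pow_le_pow_left₀ (fold_half_nonneg x) (fold_half_le x a) 2

theorem stdB_ball {r : ℝ} (hr : 0 < r) : stdB (.ball r) = periodicBall r := by
  ext x
  simp only [stdB, periodicBall, mem_ofPred_eq]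
  constructor
  · intro h
    refine ⟨WithLp.toLp 2 (fun i => (round (x i) : ℝ)), fun i => ⟨round (x i), rfl⟩, ?_⟩
    rw [EuclideanSpace.dist_eq, Real.sqrt_lt' hr, Fin.sum_univ_three]
    simp only [Real.dist_eq, sq_abs]
    simpa only [fold_half_sq] using h
  · rintro ⟨v, hv, h⟩
    rw [EuclideanSpace.dist_eq, Real.sqrt_lt' hr, Fin.sum_univ_three] at h
    simp only [Real.dist_eq, sq_abs] at h
    obtain ⟨a, ha⟩ := hv 0
    obtain ⟨b, hb⟩ := hv 1
    obtain ⟨c, hc⟩ := hv 2
    rw [ha, hb, hc] at h
    have h0 := fold_half_sq_le (x 0) a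
    have h1 := fold_half_sq_le (x 1) b
    have h2 := fold_half_sq_le (x 2) c
    linarith

theorem tube_iff (r : ℝ) (x : E3) : x ∈ periodicTube r ↔ (fold (x 0) / 2) ^ 2 + (fold (x 1) / 2) ^ 2 < r ^ 2 := by
  simp only [periodicTube, mem_ofPred_eq]
  constructor
  · rintro ⟨a, b, h⟩
    have h0 := fold_half_sq_le (x 0) a
    have h1 := fold_half_sq_le (x 1) b
    linarith
  · intro h
    exact ⟨round (x 0), round (x 1), by simpa only [fold_half_sq] using h⟩

theorem cubic_swap (j k : Fin 3) (c : E3) :
    IsCubicIsometry (fun x : E3 => WithLp.toLp 2 fun i => x (Equiv.swap j k i) + c i) :=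
  ⟨Equiv.swap j k, fun _ => 1, c, fun _ => Or.inl rfl, fun x i => by simp⟩

theorem stdB_tube (j : Fin 3) (r : ℝ) :
    stdB (.tube j r) = (fun x : E3 => (WithLp.toLp 2 fun i => x (Equiv.swap j 2 i) + (0 : E3) i : E3)) '' periodicTube r := by
  ext y
  simp only [stdB, mem_ofPred_eq, mem_image]
  constructor
  · intro h
    refine ⟨WithLp.toLp 2 fun i => y (Equiv.swap j 2 i), ?_, ?_⟩
    · rw [tube_iff]
      fin_cases j
      · have e0 : Equiv.swap (0 : Fin 3) 2 0 = 2 := by decide
        have e1 : Equiv.swap (0 : Fin 3) 2 1 = 1 := by decide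
        simp only [rem] at h
        have f0 : (0 : Fin 3).succAbove (0 : Fin 2) = 1 := rfl
        have f1 : (0 : Fin 3).succAbove (1 : Fin 2) = 2 := rfl
        simp only [Fin.zero_eta, Fin.isValue, f0, f1] at h
        simp only [Fin.zero_eta, Fin.isValue, e0, e1]
        linarith
      · have e0 : Equiv.swap (1 : Fin 3) 2 0 = 0 := by decide
        have e1 : Equiv.swap (1 : Fin 3) 2 1 = 2 := by decide
        simp only [rem] at h
        have f0 : (1 : Fin 3).succAbove (0 : Fin 2) = 0 := rfl
        have f1 : (1 : Fin 3).succAbove (1 : Fin 2) = 2 := rfl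
        simp only [Fin.mk_one, Fin.isValue, f0, f1] at h
        simp only [Fin.mk_one, Fin.isValue, e0, e1]
        linarith
      · have e0 : Equiv.swap (2 : Fin 3) 2 0 = 0 := by decide
        have e1 : Equiv.swap (2 : Fin 3) 2 1 = 1 := by decide
        simp only [rem] at h
        have f0 : (2 : Fin 3).succAbove (0 : Fin 2) = 0 := rfl
        have f1 : (2 : Fin 3).succAbove (1 : Fin 2) = 1 := rfl
        simp only [Fin.reduceFinMk, Fin.isValue, f0, f1] at h
        simp only [Fin.reduceFinMk, Fin.isValue, e0, e1]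
        linarith
    · ext i
      simp
  · rintro ⟨x, hx, rfl⟩
    rw [tube_iff] at hx
    fin_cases j
    · have e0 : Equiv.swap (0 : Fin 3) 2 1 = 1 := by decide
      have e1 : Equiv.swap (0 : Fin 3) 2 2 = 0 := by decide
      have f0 : (0 : Fin 3).succAbove (0 : Fin 2) = 1 := rfl
      have f1 : (0 : Fin 3).succAbove (1 : Fin 2) = 2 := rfl
      simp only [rem, Fin.zero_eta, Fin.isValue, f0, f1, e0, e1, PiLp.zero_apply, add_zero]
      linarith
    · have e0 : Equiv.swap (1 : Fin 3) 2 0 = 0 := by decide
      have e1 : Equiv.swap (1 : Fin 3) 2 2 = 1 := by decide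
      have f0 : (1 : Fin 3).succAbove (0 : Fin 2) = 0 := rfl
      have f1 : (1 : Fin 3).succAbove (1 : Fin 2) = 2 := rfl
      simp only [rem, Fin.mk_one, Fin.isValue, f0, f1, e0, e1, PiLp.zero_apply, add_zero]
      linarith
    · have e0 : Equiv.swap (2 : Fin 3) 2 0 = 0 := by decide
      have e1 : Equiv.swap (2 : Fin 3) 2 1 = 1 := by decide
      have f0 : (2 : Fin 3).succAbove (0 : Fin 2) = 0 := rfl
      have f1 : (2 : Fin 3).succAbove (1 : Fin 2) = 1 := rfl
      simp only [rem, Fin.reduceFinMk, Fin.isValue, f0, f1, e0, e1, PiLp.zero_apply, add_zero]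
      linarith

theorem hyperplane_null (j : Fin 3) (c : ℝ) : volume {x : E3 | x j = c} = 0 := by
  have hm : MeasurableSet {x : E3 | x j = c} := measurableSet_eq_fun (coord_measurable j) measurable_const
  rw [← (PiLp.volume_preserving_toLp (Fin 3)).measure_preimage hm.nullMeasurableSet]
  exact Measure.pi_hyperplane (fun _ : Fin 3 => (volume : Measure ℝ)) j c

theorem stdB_slab (j : Fin 3) {w : ℝ} :
    volume (symmDiff (stdB (.slab j w)) ((fun x : E3 => (WithLp.toLp 2 fun i => x (Equiv.swap j 0 i) +
      (WithLp.toLp 2 (fun _ => - (w / 2)) : E3) i : E3)) '' periodicSlab w)) = 0 := by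
  have hsub : symmDiff (stdB (.slab j w)) ((fun x : E3 => (WithLp.toLp 2 fun i => x (Equiv.swap j 0 i) +
      (WithLp.toLp 2 (fun _ => - (w / 2)) : E3) i : E3)) '' periodicSlab w) ⊆ ⋃ a : ℤ, {x : E3 | x j = a - w / 2} := by
    intro y hy
    rcases hy with ⟨h1, h2⟩ | ⟨h1, h2⟩
    · exfalso
      apply h2
      refine ⟨WithLp.toLp 2 fun i => y (Equiv.swap j 0 i) + w / 2, ⟨round (y j), ?_⟩, ?_⟩
      · have h3 : fold (y j) / 2 < w / 2 := by
          have : fold (y j) < w := h1
          linarith
        rw [fold_half, abs_lt] at h3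
        simp only [Equiv.swap_apply_right]
        constructor <;> linarith [h3.1, h3.2]
      · ext i
        simp
    · obtain ⟨x, ⟨a, h3, h4⟩, rfl⟩ := h1
      rw [mem_iUnion]
      refine ⟨a, ?_⟩
      by_contra hne
      apply h2
      have hne' : x 0 - w / 2 ≠ a - w / 2 := by
        intro h
        apply hne
        simp only [mem_ofPred_eq, Equiv.swap_apply_left]
        linarith
      have h5 : (a:ℝ) < x 0 := lt_of_le_of_ne h3 fun h => hne' (by rw [← h])
      change fold (x (Equiv.swap j 0 j) + -(w / 2)) < w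
      rw [Equiv.swap_apply_left]
      have h6 := fold_half_le (x 0 + -(w / 2)) a
      have h7 : |x 0 + -(w / 2) - a| < w / 2 := by
        rw [abs_lt]; constructor <;> linarith
      linarith
  refine measure_mono_null hsub (measure_iUnion_null fun a => ?_)
  exact hyperplane_null j _

theorem stdB_periodic (s : Shape) : IsLatticePeriodic (stdB s) := by
  have hf : ∀ (x : E3) (v : E3) (hv : HasIntegerCoords v) (i : Fin 3), fold ((x + v) i) = fold (x i) := by
    intro x v hv i
    obtain ⟨m, hm⟩ := hv i
    simp only [PiLp.add_apply, hm, fold, round_add_intCast]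
    push_cast
    congr 2
    ring
  intro v hv x
  cases s with
  | ball r => simp only [stdB, mem_ofPred_eq, hf x v hv]
  | tube j r =>
    simp only [stdB, mem_ofPred_eq, rem, hf x v hv]
  | slab j w => simp only [stdB, mem_ofPred_eq, hf x v hv]

theorem fold_measurable : Measurable fold := by
  unfold fold
  have : Measurable fun x : ℝ => ((round x : ℤ) : ℝ) := by
    have h : (fun x : ℝ => ((round x : ℤ) : ℝ)) = fun x : ℝ => ((⌊x + 1 / 2⌋ : ℤ) : ℝ) := by
      funext x; rw [round_eq]
    rw [h]
    exact (measurable_from_top.comp (Int.measurable_floor.comp (measurable_id.add_const _)))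
  exact ((measurable_id.sub this).abs).const_mul 2

theorem stdB_meas (s : Shape) : MeasurableSet (stdB s) := by
  have hf : ∀ i : Fin 3, Measurable fun x : E3 => fold (x i) := fun i =>
    fold_measurable.comp (coord_measurable i)
  cases s with
  | ball r =>
    exact measurableSet_lt (((((hf 0).div_const 2).pow_const 2).add (((hf 1).div_const 2).pow_const 2)).add
      (((hf 2).div_const 2).pow_const 2)) measurable_const
  | tube j r =>
    exact measurableSet_lt ((((hf _).div_const 2).pow_const 2).add (((hf _).div_const 2).pow_const 2))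
      measurable_const
  | slab j w => exact measurableSet_lt (hf j) measurable_const

theorem stdB_per_le (s : Shape) (hs : stdOk s) : periodicPerimeter (stdB s) ≤ ENNReal.ofReal (stdP s) := by
  cases s with
  | ball r =>
    rw [stdB_ball hs.1]
    exact per_ball_le r hs.1.le hs.2.le
  | tube j r =>
    have h : CongruentModNull (stdB (.tube j r)) (periodicTube r) :=
      ⟨_, cubic_swap j 2 0, by rw [stdB_tube, symmDiff_self]; exact measure_empty⟩
    exact (perimeter_congruent_le (tube_meas r) (tube_periodic r) h).trans (per_tube_le r hs.1.le hs.2.le)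
  | slab j w =>
    have h : CongruentModNull (stdB (.slab j w)) (periodicSlab w) :=
      ⟨_, cubic_swap j 0 _, stdB_slab j⟩
    exact (perimeter_congruent_le (slab_meas w) (slab_periodic w) h).trans (per_slab_le w hs.1.le hs.2.le)

/-- volumes are invariant under congruence -/
theorem pvol_congruent {E F : Set E3} (hF : MeasurableSet F) (hFp : IsLatticePeriodic F)
    (h : CongruentModNull E F) : periodicVolume E = periodicVolume F := by
  obtain ⟨g, hg, h0⟩ := h
  obtain ⟨A, c, hA, hA', hgA⟩ := cubic_form hg
  rw [pvol_congr h0, show g = fun x => A x + c from funext hgA]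
  have hinj : Function.Injective (fun x : E3 => A x + c) := fun x y h => A.injective (add_right_cancel h)
  have hemb : MeasurableEmbedding (fun x : E3 => A x + c) :=
    ((Homeomorph.addRight c).measurableEmbedding).comp A.toHomeomorph.measurableEmbedding
  have himg : MeasurableSet ((fun x => A x + c) '' F) := hemb.measurableSet_image.2 hF
  have hper : IsLatticePeriodic ((fun x => A x + c) '' F) := by
    apply periodic_of_imp
    rintro v hv _ ⟨x, hx, rfl⟩
    refine ⟨x + A.symm v, (hFp _ (hA' v hv) x).2 hx, ?_⟩
    simp only [map_add, A.apply_symm_apply]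
    abel
  have e1 : ∀ (S : Set E3) (hS : MeasurableSet S), periodicVolume S
      = ∫ x in unitCell 3, S.indicator (fun _ => (1:ℝ)) x := fun S hS => by
    rw [setIntegral_indicator hS, inter_comm]
    simp [periodicVolume, Measure.real]
  rw [e1 _ himg, e1 _ hF, setIntegral_cell_comp A c hA hA']
  · congr 1
    ext x
    by_cases hx : x ∈ F
    · rw [indicator_of_mem (mem_image_of_mem _ hx), indicator_of_mem hx]
    · rw [indicator_of_notMem hx, indicator_of_notMem]
      rintro ⟨y, hy, hxy⟩
      exact hx (hinj hxy ▸ hy)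
  · intro v hv x
    by_cases hx : x ∈ (fun x => A x + c) '' F
    · rw [indicator_of_mem hx, indicator_of_mem ((hper v hv x).2 hx)]
    · rw [indicator_of_notMem hx, indicator_of_notMem fun h => hx ((hper v hv x).1 h)]

/-- volumes of the centred standard sets -/
def stdV : Shape → ℝ
  | .ball r => 4 / 3 * Real.pi * r ^ 3
  | .tube _ r => Real.pi * r ^ 2
  | .slab _ w => w

theorem stdB_congruent (s : Shape) (hs : stdOk s) : CongruentModNull (stdB s)
    (match s with
      | .ball r => periodicBall r
      | .tube _ r => periodicTube r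
      | .slab _ w => periodicSlab w) := by
  cases s with
  | ball r =>
    refine ⟨_, cubic_swap 0 0 0, ?_⟩
    have : (fun x : E3 => (WithLp.toLp 2 fun i => x (Equiv.swap 0 0 i) + (0 : E3) i : E3)) = id := by
      funext x; ext i; simp
    rw [this, image_id, stdB_ball hs.1, symmDiff_self]
    exact measure_empty
  | tube j r => exact ⟨_, cubic_swap j 2 0, by rw [stdB_tube, symmDiff_self]; exact measure_empty⟩
  | slab j w => exact ⟨_, cubic_swap j 0 _, stdB_slab j⟩

theorem stdB_vol (s : Shape) (hs : stdOk s) : periodicVolume (stdB s) = stdV s := by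
  cases s with
  | ball r => rw [stdB_ball hs.1]; exact pvol_ball r hs.1.le hs.2.le
  | tube j r =>
    rw [pvol_congruent (tube_meas r) (tube_periodic r) (stdB_congruent (.tube j r) hs)]
    exact pvol_tube r hs.1.le hs.2.le
  | slab j w =>
    rw [pvol_congruent (slab_meas w) (slab_periodic w) (stdB_congruent (.slab j w) hs)]
    exact pvol_slab w hs.1.le hs.2.le

end Crest.Agent.IT
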