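import Mathlib
import Crest.Prelude.Def_PeriodicPerimeter

/-! Row 214 (helper25): basic facts about lattice-periodic sets: fundamental domains, periodic
functions, the key first-variation inequality. -/

set_option autoImplicit false
open MeasureTheory Set Crest.GeometryTopology.PeriodicPerimeter

noncomputable section

namespace Crest.Agent.IT

/-- standard basis -/
abbrev bs (n : ℕ) : Module.Basis (Fin n) ℝ (EuclideanSpace ℝ (Fin n)) :=
  (EuclideanSpace.basisFun (Fin n) ℝ).toBasis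

/-- the integer lattice -/
abbrev Lat (n : ℕ) : AddSubgroup (EuclideanSpace ℝ (Fin n)) :=
  (Submodule.span ℤ (Set.range (bs n))).toAddSubgroup

theorem unitCell_eq (n : ℕ) : unitCell n = ZSpan.fundamentalDomain (bs n) := by
  ext x
  simp [unitCell, ZSpan.mem_fundamentalDomain]

theorem mem_Lat {n : ℕ} (v : EuclideanSpace ℝ (Fin n)) : v ∈ Lat n ↔ HasIntegerCoords v := by
  change v ∈ Submodule.span ℤ (Set.range (bs n)) ↔ _
  rw [(bs n).mem_span_iff_repr_mem ℤ v]
  simp only [HasIntegerCoords, Set.mem_range]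
  constructor
  · intro h i
    obtain ⟨m, hm⟩ := h i
    refine ⟨m, ?_⟩
    simpa using hm.symm
  · intro h i
    obtain ⟨m, hm⟩ := h i
    refine ⟨m, ?_⟩
    simpa using hm.symm

theorem fund (n : ℕ) : IsAddFundamentalDomain (Lat n) (unitCell n) (volume : Measure (EuclideanSpace ℝ (Fin n))) := by
  rw [unitCell_eq]
  exact ZSpan.isAddFundamentalDomain' (bs n) _

theorem measurableSet_unitCell (n : ℕ) : MeasurableSet (unitCell n) := by
  rw [unitCell_eq]
  exact ZSpan.fundamentalDomain_measurableSet _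

theorem unitCell_subset_ball (n : ℕ) : ∃ R : ℝ, unitCell n ⊆ Metric.closedBall 0 R := by
  rw [unitCell_eq]
  obtain ⟨R, hR⟩ := (ZSpan.fundamentalDomain_isBounded (bs n)).subset_closedBall 0
  exact ⟨R, hR⟩

theorem volume_unitCell_lt_top (n : ℕ) : volume (unitCell n) < ⊤ := by
  obtain ⟨R, hR⟩ := unitCell_subset_ball n
  exact lt_of_le_of_lt (measure_mono hR) measure_closedBall_lt_top

/-- every point has an integer translate in the unit cell -/
theorem exists_add_mem (n : ℕ) (x : EuclideanSpace ℝ (Fin n)) :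
    ∃ v, HasIntegerCoords v ∧ x + v ∈ unitCell n := by
  refine ⟨WithLp.toLp 2 (fun i => -(⌊x i⌋ : ℝ)), fun i => ⟨-⌊x i⌋, by simp⟩, fun i => ?_⟩
  simp only [PiLp.add_apply]
  constructor
  · have := Int.floor_le (x i); linarith
  · have := Int.lt_floor_add_one (x i); linarith

/-- a continuous periodic function is bounded -/
theorem bounded_of_periodic {n : ℕ} {F : Type*} [SeminormedAddCommGroup F]
    (f : EuclideanSpace ℝ (Fin n) → F) (hf : Continuous f)
    (hp : ∀ v, HasIntegerCoords v → ∀ x, f (x + v) = f x) : ∃ K : ℝ, 0 ≤ K ∧ ∀ x, ‖f x‖ ≤ K := by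
  obtain ⟨R, hR⟩ := unitCell_subset_ball n
  obtain ⟨K, hK⟩ := (isCompact_closedBall (0 : EuclideanSpace ℝ (Fin n)) R).exists_bound_of_continuousOn
    hf.continuousOn
  refine ⟨max K 0, le_max_right _ _, fun x => ?_⟩
  obtain ⟨v, hv, hx⟩ := exists_add_mem n x
  rw [← hp v hv x]
  exact (hK _ (hR hx)).trans (le_max_left _ _)

theorem fderiv_periodic {n : ℕ} {φ : EuclideanSpace ℝ (Fin n) → EuclideanSpace ℝ (Fin n)}
    (hp : ∀ v, HasIntegerCoords v → ∀ x, φ (x + v) = φ x) :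
    ∀ v, HasIntegerCoords v → ∀ x, fderiv ℝ φ (x + v) = fderiv ℝ φ x := by
  intro v hv x
  have : (fun y => φ (y + v)) = φ := funext fun y => hp v hv y
  rw [← fderiv_comp_add_right v, this]

/-- entries -/
theorem entry_le {n : ℕ} (A : EuclideanSpace ℝ (Fin n) →L[ℝ] EuclideanSpace ℝ (Fin n)) {K : ℝ}
    (hA : ‖A‖ ≤ K) (i j : Fin n) : |A (EuclideanSpace.single j 1) i| ≤ K := by
  have h1 : ‖A (EuclideanSpace.single j 1)‖ ≤ K := by
    calc ‖A (EuclideanSpace.single j 1)‖ ≤ ‖A‖ * ‖(EuclideanSpace.single j (1:ℝ) : EuclideanSpace ℝ (Fin n))‖ := A.le_opNorm _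
      _ ≤ K := by simpa using hA
  have h2 := PiLp.norm_apply_le (A (EuclideanSpace.single j (1:ℝ))) i
  rw [Real.norm_eq_abs] at h2
  exact h2.trans h1

theorem abs_mul_le' {a b K : ℝ} (ha : |a| ≤ K) (hb : |b| ≤ K) : |a * b| ≤ K ^ 2 := by
  rw [abs_mul, sq]
  exact mul_le_mul ha hb (abs_nonneg _) ((abs_nonneg _).trans ha)

theorem abs_mul_le'' {a b c K : ℝ} (ha : |a| ≤ K) (hb : |b| ≤ K) (hc : |c| ≤ K) :
    |a * b * c| ≤ K ^ 3 := by
  rw [abs_mul, pow_succ]
  exact mul_le_mul (abs_mul_le' ha hb) hc (abs_nonneg _) (by positivity)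

theorem det_lb (A : EuclideanSpace ℝ (Fin 3) →L[ℝ] EuclideanSpace ℝ (Fin 3)) {K t : ℝ}
    (hK : 0 ≤ K) (hA : ‖A‖ ≤ K) (ht : 0 ≤ t) (ht1 : t ≤ 1) :
    1 + t * (∑ i, A (EuclideanSpace.single i 1) i) - (6 * K ^ 2 + 6 * K ^ 3) * t ^ 2 ≤
      (ContinuousLinearMap.id ℝ (EuclideanSpace ℝ (Fin 3)) + t • A).det := by
  have hdet : (ContinuousLinearMap.id ℝ (EuclideanSpace ℝ (Fin 3)) + t • A).det
      = Matrix.det (Matrix.of fun i j : Fin 3 => (if i = j then (1:ℝ) else 0)
        + t * A (EuclideanSpace.single j 1) i) := by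
    rw [ContinuousLinearMap.det, ← LinearMap.det_toMatrix (bs 3)]
    congr 1
    ext i j
    simp [LinearMap.toMatrix_apply, EuclideanSpace.basisFun_apply]
  rw [hdet, Matrix.det_fin_three, Fin.sum_univ_three]
  simp only [Matrix.of_apply]
  norm_num [Fin.ext_iff]
  have h := fun i j => entry_le A hA i j
  have h00 := h 0 0
  have h01 := h 0 1
  have h02 := h 0 2
  have h10 := h 1 0
  have h11 := h 1 1
  have h12 := h 1 2
  have h20 := h 2 0
  have h21 := h 2 1
  have h22 := h 2 2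
  clear h
  generalize A (EuclideanSpace.single 0 1) 0 = a00 at *
  generalize A (EuclideanSpace.single 0 1) 1 = a10 at *
  generalize A (EuclideanSpace.single 0 1) 2 = a20 at *
  generalize A (EuclideanSpace.single 1 1) 0 = a01 at *
  generalize A (EuclideanSpace.single 1 1) 1 = a11 at *
  generalize A (EuclideanSpace.single 1 1) 2 = a21 at *
  generalize A (EuclideanSpace.single 2 1) 0 = a02 at *
  generalize A (EuclideanSpace.single 2 1) 1 = a12 at *
  generalize A (EuclideanSpace.single 2 1) 2 = a22 at *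
  have m1 := abs_le.1 (abs_mul_le' h00 h11)
  have m2 := abs_le.1 (abs_mul_le' h01 h10)
  have m3 := abs_le.1 (abs_mul_le' h00 h22)
  have m4 := abs_le.1 (abs_mul_le' h02 h20)
  have m5 := abs_le.1 (abs_mul_le' h11 h22)
  have m6 := abs_le.1 (abs_mul_le' h12 h21)
  have n1 := abs_le.1 (abs_mul_le'' h00 h11 h22)
  have n2 := abs_le.1 (abs_mul_le'' h00 h12 h21)
  have n3 := abs_le.1 (abs_mul_le'' h01 h10 h22)
  have n4 := abs_le.1 (abs_mul_le'' h01 h12 h20)
  have n5 := abs_le.1 (abs_mul_le'' h02 h10 h21)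
  have n6 := abs_le.1 (abs_mul_le'' h02 h11 h20)
  have M2 : -(6 * K ^ 2) ≤ a00 * a11 - a01 * a10 + a00 * a22 - a02 * a20 + a11 * a22 - a12 * a21 := by
    linarith [m1.1, m2.2, m3.1, m4.2, m5.1, m6.2]
  have M3 : -(6 * K ^ 3) ≤ a00 * a11 * a22 - a00 * a12 * a21 - a01 * a10 * a22 + a01 * a12 * a20
      + a02 * a10 * a21 - a02 * a11 * a20 := by
    linarith [n1.1, n2.2, n3.2, n4.1, n5.1, n6.2]
  have t2 : 0 ≤ t ^ 2 := by positivity
  have t3 : t ^ 3 ≤ t ^ 2 := by nlinarith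
  have t3' : 0 ≤ t ^ 3 := by positivity
  have q1 := mul_le_mul_of_nonneg_left M2 t2
  have q2 := mul_le_mul_of_nonneg_left M3 t3'
  have q3 : 6 * K ^ 3 * t ^ 3 ≤ 6 * K ^ 3 * t ^ 2 := mul_le_mul_of_nonneg_left t3 (by positivity)
  nlinarith [q1, q2, q3]

end Crest.Agent.IT
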