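import Crest.Agent.IT.StdInv

/-! Row 214 (helper25): the standard regions attain the profile. -/

set_option autoImplicit false
open MeasureTheory Set Crest.GeometryTopology.PeriodicPerimeter

noncomputable section

namespace Crest.Agent.IT

local notation "E3" => EuclideanSpace ℝ (Fin 3)

/-- the isoperimetric profile for `0 < v ≤ 1/2` -/
def prof (v : ℝ) : ℝ :=
  min (min ((36 * Real.pi) ^ ((1 : ℝ) / 3) * v ^ ((2 : ℝ) / 3)) (2 * Real.sqrt (Real.pi * v))) 2

theorem beta_pow (v : ℝ) (hv : 0 ≤ v) :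
    ((36 * Real.pi) ^ ((1 : ℝ) / 3) * v ^ ((2 : ℝ) / 3)) ^ 3 = 36 * Real.pi * v ^ 2 := by
  rw [mul_pow, ← Real.rpow_natCast, ← Real.rpow_mul (by positivity), ← Real.rpow_natCast (v ^ _),
    ← Real.rpow_mul hv]
  norm_num

theorem gamma_sq (v : ℝ) (hv : 0 ≤ v) : (2 * Real.sqrt (Real.pi * v)) ^ 2 = 4 * Real.pi * v := by
  rw [mul_pow, Real.sq_sqrt (by positivity)]; ring

theorem beta_nonneg (v : ℝ) (hv : 0 ≤ v) : 0 ≤ (36 * Real.pi) ^ ((1 : ℝ) / 3) * v ^ ((2 : ℝ) / 3) := by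
  positivity

theorem beta_le_gamma (v : ℝ) (hv : 0 ≤ v) (h : v ≤ 4 * Real.pi / 81) :
    (36 * Real.pi) ^ ((1 : ℝ) / 3) * v ^ ((2 : ℝ) / 3) ≤ 2 * Real.sqrt (Real.pi * v) := by
  have hb := beta_nonneg v hv
  have hb3 := beta_pow v hv
  have hg2 := gamma_sq v hv
  have hg : 0 ≤ 2 * Real.sqrt (Real.pi * v) := by positivity
  generalize (36 * Real.pi) ^ ((1 : ℝ) / 3) * v ^ ((2 : ℝ) / 3) = b at *
  generalize 2 * Real.sqrt (Real.pi * v) = g at *
  apply le_of_pow_le_pow_left₀ (n := 6) (by norm_num) hg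
  have e1 : b ^ 6 = (36 * Real.pi * v ^ 2) ^ 2 := by rw [← hb3]; ring
  have e2 : g ^ 6 = (4 * Real.pi * v) ^ 3 := by rw [← hg2]; ring
  rw [e1, e2]
  have : (4 * Real.pi * v) ^ 3 - (36 * Real.pi * v ^ 2) ^ 2
      = 1296 * Real.pi ^ 2 * v ^ 3 * (4 * Real.pi / 81 - v) := by ring
  have h2 : 0 ≤ 1296 * Real.pi ^ 2 * v ^ 3 * (4 * Real.pi / 81 - v) := by
    apply mul_nonneg (by positivity); linarith
  linarith

theorem gamma_le_beta (v : ℝ) (hv : 0 ≤ v) (h : 4 * Real.pi / 81 ≤ v) :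
    2 * Real.sqrt (Real.pi * v) ≤ (36 * Real.pi) ^ ((1 : ℝ) / 3) * v ^ ((2 : ℝ) / 3) := by
  have hb := beta_nonneg v hv
  have hb3 := beta_pow v hv
  have hg2 := gamma_sq v hv
  have hg : 0 ≤ 2 * Real.sqrt (Real.pi * v) := by positivity
  generalize (36 * Real.pi) ^ ((1 : ℝ) / 3) * v ^ ((2 : ℝ) / 3) = b at *
  generalize 2 * Real.sqrt (Real.pi * v) = g at *
  apply le_of_pow_le_pow_left₀ (n := 6) (by norm_num) hb
  have e1 : b ^ 6 = (36 * Real.pi * v ^ 2) ^ 2 := by rw [← hb3]; ring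
  have e2 : g ^ 6 = (4 * Real.pi * v) ^ 3 := by rw [← hg2]; ring
  rw [e1, e2]
  have : (36 * Real.pi * v ^ 2) ^ 2 - (4 * Real.pi * v) ^ 3
      = 1296 * Real.pi ^ 2 * v ^ 3 * (v - 4 * Real.pi / 81) := by ring
  have h2 : 0 ≤ 1296 * Real.pi ^ 2 * v ^ 3 * (v - 4 * Real.pi / 81) := by
    apply mul_nonneg (by positivity); linarith
  linarith

theorem gamma_le_two (v : ℝ) (hv : 0 ≤ v) (h : v ≤ 1 / Real.pi) : 2 * Real.sqrt (Real.pi * v) ≤ 2 := by
  have hg2 := gamma_sq v hv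
  have hg : 0 ≤ 2 * Real.sqrt (Real.pi * v) := by positivity
  have h1 : Real.pi * v ≤ 1 := by
    rw [le_div_iff₀ Real.pi_pos] at h; linarith
  nlinarith

theorem two_le_gamma (v : ℝ) (hv : 0 ≤ v) (h : 1 / Real.pi ≤ v) : 2 ≤ 2 * Real.sqrt (Real.pi * v) := by
  have hg2 := gamma_sq v hv
  have hg : 0 ≤ 2 * Real.sqrt (Real.pi * v) := by positivity
  have h1 : 1 ≤ Real.pi * v := by
    rw [div_le_iff₀ Real.pi_pos] at h; linarith
  nlinarith

theorem thresholds : 4 * Real.pi / 81 ≤ 1 / Real.pi := by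
  rw [div_le_div_iff₀ (by norm_num) Real.pi_pos]
  have h1 := Real.pi_lt_d2
  have h2 := Real.pi_pos
  nlinarith

theorem prof_ball (v : ℝ) (hv : 0 ≤ v) (h : v ≤ 4 * Real.pi / 81) :
    prof v = (36 * Real.pi) ^ ((1 : ℝ) / 3) * v ^ ((2 : ℝ) / 3) := by
  unfold prof
  have h1 := beta_le_gamma v hv h
  rw [min_eq_left h1, min_eq_left (h1.trans (gamma_le_two v hv (h.trans thresholds)))]

theorem prof_tube (v : ℝ) (hv : 0 ≤ v) (h : 4 * Real.pi / 81 ≤ v) (h' : v ≤ 1 / Real.pi) :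
    prof v = 2 * Real.sqrt (Real.pi * v) := by
  unfold prof
  rw [min_eq_right (gamma_le_beta v hv h), min_eq_left (gamma_le_two v hv h')]

theorem prof_slab (v : ℝ) (hv : 0 ≤ v) (h : 1 / Real.pi ≤ v) : prof v = 2 := by
  unfold prof
  have h1 := two_le_gamma v hv h
  exact min_eq_right (le_min (h1.trans (gamma_le_beta v hv (thresholds.trans h))) h1)

/-- radius of the ball -/
theorem rad_facts (v : ℝ) (hv : 0 ≤ v) (h : v ≤ 4 * Real.pi / 81) :
    0 ≤ (3 * v / (4 * Real.pi)) ^ ((1 : ℝ) / 3) ∧ (3 * v / (4 * Real.pi)) ^ ((1 : ℝ) / 3) ≤ 1 / 2 ∧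
    4 / 3 * Real.pi * ((3 * v / (4 * Real.pi)) ^ ((1 : ℝ) / 3)) ^ 3 = v ∧
    4 * Real.pi * ((3 * v / (4 * Real.pi)) ^ ((1 : ℝ) / 3)) ^ 2 =
      (36 * Real.pi) ^ ((1 : ℝ) / 3) * v ^ ((2 : ℝ) / 3) := by
  have hpi := Real.pi_pos
  have h0 : 0 ≤ 3 * v / (4 * Real.pi) := by positivity
  have hr0 : 0 ≤ (3 * v / (4 * Real.pi)) ^ ((1 : ℝ) / 3) := by positivity
  have hr3 : ((3 * v / (4 * Real.pi)) ^ ((1 : ℝ) / 3)) ^ 3 = 3 * v / (4 * Real.pi) := by
    rw [← Real.rpow_natCast, ← Real.rpow_mul h0]; norm_num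
  refine ⟨hr0, ?_, ?_, ?_⟩
  · apply le_of_pow_le_pow_left₀ (n := 3) (by norm_num) (by norm_num)
    rw [hr3, div_le_iff₀ (by positivity)]
    linarith
  · rw [hr3]; field_simp
  · have hb := beta_nonneg v hv
    have hb3 := beta_pow v hv
    generalize (36 * Real.pi) ^ ((1 : ℝ) / 3) * v ^ ((2 : ℝ) / 3) = b at *
    generalize (3 * v / (4 * Real.pi)) ^ ((1 : ℝ) / 3) = r at *
    refine (pow_left_inj₀ (by positivity) hb (n := 3) (by norm_num)).1 ?_
    rw [hb3]
    have : (4 * Real.pi * r ^ 2) ^ 3 = 64 * Real.pi ^ 3 * (r ^ 3) ^ 2 := by ring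
    rw [this, hr3]
    field_simp
    ring

theorem tube_facts (v : ℝ) (hv : 0 ≤ v) (h : v ≤ 1 / Real.pi) :
    0 ≤ Real.sqrt (v / Real.pi) ∧ Real.sqrt (v / Real.pi) ≤ 1 / 2 ∧
    Real.pi * Real.sqrt (v / Real.pi) ^ 2 = v ∧
    2 * Real.pi * Real.sqrt (v / Real.pi) = 2 * Real.sqrt (Real.pi * v) := by
  have hpi := Real.pi_pos
  have hpi3 := Real.pi_gt_three
  have h1 : v * Real.pi ≤ 1 := by rwa [le_div_iff₀ hpi] at h
  refine ⟨Real.sqrt_nonneg _, ?_, ?_, ?_⟩
  · rw [Real.sqrt_le_left (by norm_num), div_le_iff₀ hpi]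
    nlinarith
  · rw [Real.sq_sqrt (by positivity)]; field_simp
  · have : Real.sqrt (Real.pi * v) = Real.pi * Real.sqrt (v / Real.pi) := by
      rw [show Real.pi * v = Real.pi ^ 2 * (v / Real.pi) by field_simp, Real.sqrt_mul (by positivity),
        Real.sqrt_sq hpi.le]
    rw [this]; ring

/-- every standard region has perimeter at most the profile -/
theorem std_le {W : ℝ} (hW : 0 < W) (hW2 : W ≤ 1 / 2) {F : Set E3} (h : IsStandardRegion W F) :
    periodicPerimeter F ≤ ENNReal.ofReal (prof W) := by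
  rcases h with ⟨h1, h2⟩ | ⟨h0, h1, h2⟩ | ⟨h1, h2⟩
  · obtain ⟨hr0, hr1, hr2, hr3⟩ := rad_facts W hW.le h1
    rw [prof_ball W hW.le h1, ← hr3]
    exact (perimeter_congruent_le (ball_meas _) (ball_periodic _) h2).trans (per_ball_le _ hr0 hr1)
  · obtain ⟨hr0, hr1, hr2, hr3⟩ := tube_facts W hW.le h1
    rw [prof_tube W hW.le h0 h1, ← hr3]
    exact (perimeter_congruent_le (tube_meas _) (tube_periodic _) h2).trans (per_tube_le _ hr0 hr1)
  · rw [prof_slab W hW.le h1]
    exact (perimeter_congruent_le (slab_meas _) (slab_periodic _) h2).trans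
      (per_slab_le W hW.le (by linarith))

/-- existence of a set of volume `W` with perimeter at most the profile -/
theorem exists_std {W : ℝ} (hW : 0 < W) (hW2 : W ≤ 1 / 2) :
    ∃ F : Set E3, MeasurableSet F ∧ IsLatticePeriodic F ∧ periodicVolume F = W ∧
      periodicPerimeter F ≤ ENNReal.ofReal (prof W) := by
  rcases le_total W (4 * Real.pi / 81) with h1 | h1
  · obtain ⟨hr0, hr1, hr2, hr3⟩ := rad_facts W hW.le h1
    refine ⟨periodicBall _, ball_meas _, ball_periodic _, (pvol_ball _ hr0 hr1).trans hr2, ?_⟩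
    rw [prof_ball W hW.le h1, ← hr3]
    exact per_ball_le _ hr0 hr1
  · rcases le_total W (1 / Real.pi) with h2 | h2
    · obtain ⟨hr0, hr1, hr2, hr3⟩ := tube_facts W hW.le h2
      refine ⟨periodicTube _, tube_meas _, tube_periodic _, (pvol_tube _ hr0 hr1).trans hr2, ?_⟩
      rw [prof_tube W hW.le h1 h2, ← hr3]
      exact per_tube_le _ hr0 hr1
    · refine ⟨periodicSlab W, slab_meas _, slab_periodic _, pvol_slab W hW.le (by linarith), ?_⟩
      rw [prof_slab W hW.le h2]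
      exact per_slab_le W hW.le (by linarith)

theorem periodic_compl {n : ℕ} {F : Set (EuclideanSpace ℝ (Fin n))} (h : IsLatticePeriodic F) :
    IsLatticePeriodic Fᶜ := fun v hv x => not_congr (h v hv x)

/-- The lower bound at volume `V`. -/
def LowerBound (V : ℝ) : Prop :=
  ∀ E : Set E3, MeasurableSet E → IsLatticePeriodic E → periodicVolume E = V →
    ENNReal.ofReal (prof (min V (1 - V))) ≤ periodicPerimeter E

/-- It is enough to prove the lower bound for `0 < V ≤ 1/2`. -/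
theorem lowerBound_of_half (h : ∀ V : ℝ, 0 < V → V ≤ 1 / 2 → ∀ E : Set E3, MeasurableSet E →
    IsLatticePeriodic E → periodicVolume E = V → ENNReal.ofReal (prof V) ≤ periodicPerimeter E)
    (V : ℝ) (hV : 0 < V) (hV' : V < 1) : LowerBound V := by
  intro E hE hp hvol
  rcases le_total V (1 / 2) with h1 | h1
  · rw [min_eq_left (by linarith)]
    exact h V hV h1 E hE hp hvol
  · rw [min_eq_right (by linarith), ← perimeter_compl hE]
    exact h (1 - V) (by linarith) (by linarith) Eᶜ hE.compl (periodic_compl hp)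
      (by rw [pvol_compl hE, hvol])

/-- Second half of S0332 from the lower bound. -/
theorem attained {V : ℝ} (hV : 0 < V) (hV' : V < 1) (h : LowerBound V) :
    ∃ E : Set E3, MeasurableSet E ∧ IsLatticePeriodic E ∧ periodicVolume E = V ∧
      periodicPerimeter E = ENNReal.ofReal (prof (min V (1 - V))) := by
  rcases le_total V (1 / 2) with h1 | h1
  · obtain ⟨F, a, b, c, d⟩ := exists_std hV h1
    refine ⟨F, a, b, c, le_antisymm ?_ (h F a b c)⟩
    rwa [min_eq_left (by linarith)]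
  · obtain ⟨F, a, b, c, d⟩ := exists_std (W := 1 - V) (by linarith) (by linarith)
    have hv : periodicVolume Fᶜ = V := by rw [pvol_compl a, c]; ring
    refine ⟨Fᶜ, a.compl, periodic_compl b, hv, le_antisymm ?_ (h Fᶜ a.compl (periodic_compl b) hv)⟩
    rw [min_eq_right (by linarith), perimeter_compl a]
    exact d

/-- Reverse direction of S0333 from the lower bound. -/
theorem std_reverse {V : ℝ} (hV : 0 < V) (hV' : V < 1) (h : LowerBound V) {E : Set E3}
    (hE : MeasurableSet E) (hper : IsLatticePeriodic E) (hvol : periodicVolume E = V)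
    (hs : (V ≤ 1 / 2 ∧ IsStandardRegion V E) ∨ (1 / 2 < V ∧ IsStandardRegion (1 - V) Eᶜ)) :
    periodicPerimeter E = ENNReal.ofReal (prof (min V (1 - V))) := by
  refine le_antisymm ?_ (h E hE hper hvol)
  rcases hs with ⟨h1, h2⟩ | ⟨h1, h2⟩
  · rw [min_eq_left (by linarith)]
    exact std_le hV h1 h2
  · rw [min_eq_right (by linarith), ← perimeter_compl hE]
    exact std_le (by linarith) (by linarith) h2

/-- S0332 from the lower bound for `V ≤ 1/2`. -/
theorem S0332_of (h : ∀ V : ℝ, 0 < V → V ≤ 1 / 2 → ∀ E : Set E3, MeasurableSet E →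
    IsLatticePeriodic E → periodicVolume E = V → ENNReal.ofReal (prof V) ≤ periodicPerimeter E)
    (V : ℝ) (hV : 0 < V) (hV' : V < 1) :
    (∀ E : Set (EuclideanSpace ℝ (Fin 3)), MeasurableSet E → IsLatticePeriodic E →
        periodicVolume E = V →
        ENNReal.ofReal (min (min ((36 * Real.pi) ^ ((1 : ℝ) / 3) * (min V (1 - V)) ^ ((2 : ℝ) / 3))
          (2 * Real.sqrt (Real.pi * min V (1 - V)))) 2) ≤ periodicPerimeter E) ∧
      ∃ E : Set (EuclideanSpace ℝ (Fin 3)), MeasurableSet E ∧ IsLatticePeriodic E ∧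
        periodicVolume E = V ∧
        periodicPerimeter E = ENNReal.ofReal (min (min ((36 * Real.pi) ^ ((1 : ℝ) / 3) * (min V (1 - V)) ^ ((2 : ℝ) / 3))
          (2 * Real.sqrt (Real.pi * min V (1 - V)))) 2) :=
  ⟨lowerBound_of_half h V hV hV', attained hV hV' (lowerBound_of_half h V hV hV')⟩

/-- S0333 from the lower bound and the forward direction for `V ≤ 1/2`. -/
theorem S0333_of (h : ∀ V : ℝ, 0 < V → V ≤ 1 / 2 → ∀ E : Set E3, MeasurableSet E →
    IsLatticePeriodic E → periodicVolume E = V → ENNReal.ofReal (prof V) ≤ periodicPerimeter E)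
    (hf : ∀ V : ℝ, 0 < V → V ≤ 1 / 2 → ∀ E : Set E3, MeasurableSet E →
    IsLatticePeriodic E → periodicVolume E = V → periodicPerimeter E = ENNReal.ofReal (prof V) →
      IsStandardRegion V E)
    (V : ℝ) (hV : 0 < V) (hV' : V < 1) (E : Set (EuclideanSpace ℝ (Fin 3)))
    (hE : MeasurableSet E) (hper : IsLatticePeriodic E) (hvol : periodicVolume E = V) :
    periodicPerimeter E = ENNReal.ofReal (min (min ((36 * Real.pi) ^ ((1 : ℝ) / 3) * (min V (1 - V)) ^ ((2 : ℝ) / 3))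
          (2 * Real.sqrt (Real.pi * min V (1 - V)))) 2) ↔
      ((V ≤ 1 / 2 ∧ IsStandardRegion V E) ∨ (1 / 2 < V ∧ IsStandardRegion (1 - V) Eᶜ)) := by
  constructor
  · intro he
    change periodicPerimeter E = ENNReal.ofReal (prof (min V (1 - V))) at he
    rcases le_or_gt V (1 / 2) with h1 | h1
    · left
      rw [min_eq_left (by linarith)] at he
      exact ⟨h1, hf V hV h1 E hE hper hvol he⟩
    · right
      rw [min_eq_right (by linarith), ← perimeter_compl hE] at he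
      exact ⟨h1, hf (1 - V) (by linarith) (by linarith) Eᶜ hE.compl (periodic_compl hper)
        (by rw [pvol_compl hE, hvol]) he⟩
  · exact std_reverse hV hV' (lowerBound_of_half h V hV hV') hE hper hvol

end Crest.Agent.IT
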