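import Crest.Agent.IT.StdSets

/-! Row 214 (helper25): complement, null sets, cubic isometries; standard regions attain the profile. -/

set_option autoImplicit false
open MeasureTheory Set Crest.GeometryTopology.PeriodicPerimeter
open scoped Pointwise

noncomputable section

namespace Crest.Agent.IT

local notation "E3" => EuclideanSpace ℝ (Fin 3)

theorem admissible_neg {n : ℕ} {φ : EuclideanSpace ℝ (Fin n) → EuclideanSpace ℝ (Fin n)}
    (h : IsAdmissibleField φ) : IsAdmissibleField (fun x => -φ x) :=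
  ⟨h.1.neg, fun v hv x => by
    change -φ (x + v) = -φ x
    rw [h.2.1 v hv x], fun x => by rw [norm_neg]; exact h.2.2 x⟩

theorem divergence_neg {n : ℕ} (φ : EuclideanSpace ℝ (Fin n) → EuclideanSpace ℝ (Fin n))
    (x : EuclideanSpace ℝ (Fin n)) : divergence (fun x => -φ x) x = - divergence φ x := by
  unfold divergence
  rw [← Finset.sum_neg_distrib]
  refine Finset.sum_congr rfl fun i _ => ?_
  rw [fderiv_fun_neg]
  simp

theorem univ_periodic {n : ℕ} : IsLatticePeriodic (univ : Set (EuclideanSpace ℝ (Fin n))) :=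
  fun _ _ _ => by simp

theorem cell_div_nonpos {φ : E3 → E3} (h : IsAdmissibleField φ) :
    (∫ x in unitCell 3, divergence φ x) ≤ 0 := by
  have h1 : periodicPerimeter (univ : Set E3) ≤ ENNReal.ofReal 0 := by
    apply perimeter_le MeasurableSet.univ 0 0 1 one_pos le_rfl
    intro t _ _
    exact ⟨univ, MeasurableSet.univ, univ_periodic, fun _ _ _ _ => mem_univ _, by simp⟩
  have h2 : ENNReal.ofReal (∫ x in (univ : Set E3) ∩ unitCell 3, divergence φ x) ≤ periodicPerimeter (univ : Set E3) :=
    le_iSup (fun φ : {φ : E3 → E3 // IsAdmissibleField φ} =>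
      ENNReal.ofReal (∫ x in (univ : Set E3) ∩ unitCell 3, divergence φ.1 x)) ⟨φ, h⟩
  have h3 := h2.trans h1
  rw [univ_inter, ENNReal.ofReal_zero, nonpos_iff_eq_zero, ENNReal.ofReal_eq_zero] at h3
  exact h3

theorem cell_div_zero {φ : E3 → E3} (h : IsAdmissibleField φ) :
    (∫ x in unitCell 3, divergence φ x) = 0 := by
  refine le_antisymm (cell_div_nonpos h) ?_
  have h1 := cell_div_nonpos (admissible_neg h)
  simp only [divergence_neg, integral_neg] at h1
  linarith

theorem perimeter_compl_le {E : Set E3} (hE : MeasurableSet E) :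
    periodicPerimeter Eᶜ ≤ periodicPerimeter E := by
  unfold periodicPerimeter
  refine iSup_le fun φ => ?_
  refine le_iSup_of_le ⟨fun x => -φ.1 x, admissible_neg φ.2⟩ (ENNReal.ofReal_le_ofReal ?_)
  simp only [divergence_neg, integral_neg]
  have h0 := cell_div_zero φ.2
  have h1 : (∫ x in E ∩ unitCell 3, divergence φ.1 x) + (∫ x in Eᶜ ∩ unitCell 3, divergence φ.1 x)
      = ∫ x in unitCell 3, divergence φ.1 x := by
    have := integral_inter_add_sdiff (μ := volume) (f := divergence φ.1) hE
      (integrableOn_cell (continuous_div φ.2.1) (le_refl (unitCell 3)))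
    rw [inter_comm, inter_comm Eᶜ, ← this, ← sdiff_eq]
  linarith

theorem perimeter_compl {E : Set E3} (hE : MeasurableSet E) :
    periodicPerimeter Eᶜ = periodicPerimeter E := by
  refine le_antisymm (perimeter_compl_le hE) ?_
  have := perimeter_compl_le hE.compl
  rwa [compl_compl] at this

theorem perimeter_congr {n : ℕ} {E F : Set (EuclideanSpace ℝ (Fin n))} (h : volume (symmDiff E F) = 0) :
    periodicPerimeter E = periodicPerimeter F := by
  have h1 : E =ᵐ[volume] F := measure_symmDiff_eq_zero_iff.1 h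
  have h2 : (E ∩ unitCell n : Set (EuclideanSpace ℝ (Fin n))) =ᵐ[volume] (F ∩ unitCell n : Set (EuclideanSpace ℝ (Fin n))) :=
    ae_eq_set_inter h1 (ae_eq_refl _)
  unfold periodicPerimeter
  congr 1
  ext φ
  rw [setIntegral_congr_set h2]

theorem pvol_congr {n : ℕ} {E F : Set (EuclideanSpace ℝ (Fin n))} (h : volume (symmDiff E F) = 0) :
    periodicVolume E = periodicVolume F := by
  have h1 : E =ᵐ[volume] F := measure_symmDiff_eq_zero_iff.1 h
  have h2 : (E ∩ unitCell n : Set (EuclideanSpace ℝ (Fin n))) =ᵐ[volume] (F ∩ unitCell n : Set (EuclideanSpace ℝ (Fin n))) :=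
    ae_eq_set_inter h1 (ae_eq_refl _)
  unfold periodicVolume
  rw [measure_congr h2]

theorem volume_unitCell : volume (unitCell 3) = 1 := by
  have h : unitCell 3 = slabCell 1 0 := by
    ext x
    simp [unitCell, slabCell, Fin.forall_fin_succ]
  rw [h, volume_slabCell]
  simp

theorem pvol_compl {E : Set E3} (hE : MeasurableSet E) :
    periodicVolume Eᶜ = 1 - periodicVolume E := by
  unfold periodicVolume
  have h1 : Eᶜ ∩ unitCell 3 = unitCell 3 \ (E ∩ unitCell 3) := by
    ext x; simp; tauto
  rw [h1, measure_sdiff inter_subset_right (hE.inter (measurableSet_unitCell 3)).nullMeasurableSet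
    (lt_of_le_of_lt (measure_mono inter_subset_right) (volume_unitCell_lt_top 3)).ne, volume_unitCell,
    ENNReal.toReal_sub_of_le _ ENNReal.one_ne_top]
  · simp
  · rw [← volume_unitCell]; exact measure_mono inter_subset_right

/-! ### cubic isometries -/

/-- linear part -/
def cub {n : ℕ} (σ : Equiv.Perm (Fin n)) (ε : Fin n → ℝ) (hε : ∀ i, ε i = 1 ∨ ε i = -1) :
    EuclideanSpace ℝ (Fin n) ≃ₗᵢ[ℝ] EuclideanSpace ℝ (Fin n) where
  toFun x := WithLp.toLp 2 (fun i => ε i * x (σ i))
  invFun x := WithLp.toLp 2 (fun i => ε (σ.symm i) * x (σ.symm i))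
  map_add' x y := by ext i; simp [mul_add]
  map_smul' c x := by ext i; simp; ring
  left_inv x := by
    ext i
    simp only [Equiv.apply_symm_apply]
    rcases hε (σ.symm i) with h | h <;> rw [h] <;> simp
  right_inv x := by
    ext i
    simp only [Equiv.symm_apply_apply]
    rcases hε i with h | h <;> rw [h] <;> simp
  norm_map' x := by
    rw [EuclideanSpace.norm_eq, EuclideanSpace.norm_eq]
    congr 1
    change ∑ i, ‖ε i * x (σ i)‖ ^ 2 = _
    rw [← Equiv.sum_comp σ (fun i => ‖x i‖ ^ 2)]
    refine Finset.sum_congr rfl fun i _ => ?_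
    rcases hε i with h | h <;> rw [h] <;> simp

theorem cub_int {n : ℕ} (σ : Equiv.Perm (Fin n)) (ε : Fin n → ℝ) (hε : ∀ i, ε i = 1 ∨ ε i = -1)
    {v : EuclideanSpace ℝ (Fin n)} (hv : HasIntegerCoords v) : HasIntegerCoords (cub σ ε hε v) := by
  intro i
  obtain ⟨m, hm⟩ := hv (σ i)
  change ∃ m : ℤ, ε i * v (σ i) = m
  rcases hε i with h | h
  · exact ⟨m, by rw [h, hm]; simp⟩
  · exact ⟨-m, by rw [h, hm]; simp⟩

theorem cub_symm_int {n : ℕ} (σ : Equiv.Perm (Fin n)) (ε : Fin n → ℝ) (hε : ∀ i, ε i = 1 ∨ ε i = -1)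
    {v : EuclideanSpace ℝ (Fin n)} (hv : HasIntegerCoords v) : HasIntegerCoords ((cub σ ε hε).symm v) := by
  intro i
  obtain ⟨m, hm⟩ := hv (σ.symm i)
  change ∃ m : ℤ, ε (σ.symm i) * v (σ.symm i) = m
  rcases hε (σ.symm i) with h | h
  · exact ⟨m, by rw [h, hm]; simp⟩
  · exact ⟨-m, by rw [h, hm]; simp⟩

theorem cubic_form {n : ℕ} {g : EuclideanSpace ℝ (Fin n) → EuclideanSpace ℝ (Fin n)}
    (hg : IsCubicIsometry g) : ∃ A : EuclideanSpace ℝ (Fin n) ≃ₗᵢ[ℝ] EuclideanSpace ℝ (Fin n),
      ∃ c, (∀ v, HasIntegerCoords v → HasIntegerCoords (A v)) ∧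
      (∀ v, HasIntegerCoords v → HasIntegerCoords (A.symm v)) ∧ ∀ x, g x = A x + c := by
  obtain ⟨σ, ε, c, hε, h⟩ := hg
  refine ⟨cub σ ε hε, c, fun v hv => cub_int σ ε hε hv, fun v hv => cub_symm_int σ ε hε hv, fun x => ?_⟩
  ext i
  rw [h x i]
  rfl

theorem divergence_eq_trace {n : ℕ} (φ : EuclideanSpace ℝ (Fin n) → EuclideanSpace ℝ (Fin n))
    (x : EuclideanSpace ℝ (Fin n)) :
    divergence φ x = LinearMap.trace ℝ _ (fderiv ℝ φ x : EuclideanSpace ℝ (Fin n) →ₗ[ℝ] EuclideanSpace ℝ (Fin n)) := by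
  rw [LinearMap.trace_eq_matrix_trace ℝ (bs n), Matrix.trace]
  unfold divergence
  refine Finset.sum_congr rfl fun i _ => ?_
  simp [LinearMap.toMatrix_apply]

section Iso

variable {n : ℕ} (A : EuclideanSpace ℝ (Fin n) ≃ₗᵢ[ℝ] EuclideanSpace ℝ (Fin n))
  (c : EuclideanSpace ℝ (Fin n))

theorem setIntegral_cell_comp (hA : ∀ v, HasIntegerCoords v → HasIntegerCoords (A v))
    (hA' : ∀ v, HasIntegerCoords v → HasIntegerCoords (A.symm v))
    (f : EuclideanSpace ℝ (Fin n) → ℝ) (hf : ∀ v, HasIntegerCoords v → ∀ x, f (x + v) = f x) :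
    ∫ x in unitCell n, f x = ∫ x in unitCell n, f (A x + c) := by
  have hmp : MeasurePreserving (fun x => A x + c) volume volume :=
    (measurePreserving_add_right volume c).comp A.measurePreserving
  have hemb : MeasurableEmbedding (fun x : EuclideanSpace ℝ (Fin n) => A x + c) :=
    ((Homeomorph.addRight c).measurableEmbedding).comp A.toHomeomorph.measurableEmbedding
  have hfd : IsAddFundamentalDomain (Lat n) ((fun x => A x + c) ⁻¹' unitCell n)
      (volume : Measure (EuclideanSpace ℝ (Fin n))) := by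
    apply IsAddFundamentalDomain.mk' (hmp.measurable (measurableSet_unitCell n)).nullMeasurableSet
    intro x
    obtain ⟨w, hw, hxw⟩ := exists_add_mem n (A x + c)
    refine ⟨⟨A.symm w, (mem_Lat _).2 (hA' w hw)⟩, ?_, ?_⟩
    · change A (A.symm w + x) + c ∈ unitCell n
      rw [map_add, A.apply_symm_apply]
      convert hxw using 1
      abel
    · rintro ⟨v, hv⟩ hv2
      have hv3 : A v + (A x + c) ∈ unitCell n := by
        have : A (v + x) + c ∈ unitCell n := hv2
        rw [map_add] at this
        convert this using 1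
        abel
      apply Subtype.ext
      change v = A.symm w
      have h4 : A v = w := by
        have := cell_unique (s := A v + (A x + c)) (s' := (A x + c) + w) (g := w) (g' := A v) hv3 hxw hw
          (hA v ((mem_Lat _).1 hv)) (by abel)
        exact this.symm
      rw [← h4, A.symm_apply_apply]
  rw [← hmp.setIntegral_preimage_emb hemb f (unitCell n)]
  refine hfd.setIntegral_eq (fund n) ?_
  rintro ⟨v, hv⟩ x
  change f (A (v + x) + c) = f (A x + c)
  rw [map_add, show A v + A x + c = (A x + c) + A v by abel]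
  exact hf _ (hA v ((mem_Lat _).1 hv)) _

theorem admissible_conj (hA : ∀ v, HasIntegerCoords v → HasIntegerCoords (A v))
    {φ : EuclideanSpace ℝ (Fin n) → EuclideanSpace ℝ (Fin n)} (h : IsAdmissibleField φ) :
    IsAdmissibleField (fun x => A.symm (φ (A x + c))) := by
  refine ⟨?_, ?_, ?_⟩
  · exact A.symm.contDiff.comp (h.1.comp (A.contDiff.add contDiff_const))
  · intro v hv x
    change A.symm (φ (A (x + v) + c)) = A.symm (φ (A x + c))
    rw [map_add, show A x + A v + c = (A x + c) + A v by abel, h.2.1 _ (hA v hv)]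
  · intro x
    rw [A.symm.norm_map]
    exact h.2.2 _

theorem divergence_conj {φ : EuclideanSpace ℝ (Fin n) → EuclideanSpace ℝ (Fin n)} (h : ContDiff ℝ 1 φ)
    (x : EuclideanSpace ℝ (Fin n)) :
    divergence (fun x => A.symm (φ (A x + c))) x = divergence φ (A x + c) := by
  rw [divergence_eq_trace, divergence_eq_trace]
  have h1 : HasFDerivAt (fun x => A x + c) (A : EuclideanSpace ℝ (Fin n) →L[ℝ] EuclideanSpace ℝ (Fin n)) x :=
    A.toContinuousLinearEquiv.hasFDerivAt.add_const c
  have h2 : HasFDerivAt φ (fderiv ℝ φ (A x + c)) (A x + c) :=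
    ((h.differentiable (by norm_num)) _).hasFDerivAt
  have h3 := (A.symm.toContinuousLinearEquiv.hasFDerivAt (x := φ (A x + c))).comp x (h2.comp x h1)
  have h4 : fderiv ℝ (fun x => A.symm (φ (A x + c))) x = _ := h3.fderiv
  rw [h4]
  have h5 := LinearMap.trace_conj' (fderiv ℝ φ (A x + c) : EuclideanSpace ℝ (Fin n) →ₗ[ℝ] EuclideanSpace ℝ (Fin n))
    A.symm.toLinearEquiv
  rw [← h5]
  congr 1

theorem perimeter_image_le (hA : ∀ v, HasIntegerCoords v → HasIntegerCoords (A v))
    (hA' : ∀ v, HasIntegerCoords v → HasIntegerCoords (A.symm v))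
    {F : Set (EuclideanSpace ℝ (Fin n))} (hF : MeasurableSet F) (hFp : IsLatticePeriodic F) :
    periodicPerimeter ((fun x => A x + c) '' F) ≤ periodicPerimeter F := by
  have hinj : Function.Injective (fun x => A x + c) := fun x y h => A.injective (add_right_cancel h)
  have hemb : MeasurableEmbedding (fun x : EuclideanSpace ℝ (Fin n) => A x + c) :=
    ((Homeomorph.addRight c).measurableEmbedding).comp A.toHomeomorph.measurableEmbedding
  have himg : MeasurableSet ((fun x => A x + c) '' F) := hemb.measurableSet_image.2 hF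
  have hper : IsLatticePeriodic ((fun x => A x + c) '' F) := by
    apply periodic_of_imp
    rintro v hv _ ⟨x, hx, rfl⟩
    refine ⟨x + A.symm v, (hFp _ (hA' v hv) x).2 hx, ?_⟩
    simp only [map_add, A.apply_symm_apply]
    abel
  unfold periodicPerimeter
  refine iSup_le fun φ => ?_
  refine le_iSup_of_le ⟨_, admissible_conj A c hA φ.2⟩ (ENNReal.ofReal_le_ofReal (le_of_eq ?_))
  have e1 : ∀ (S : Set (EuclideanSpace ℝ (Fin n))) (hS : MeasurableSet S)
      (f : EuclideanSpace ℝ (Fin n) → ℝ), ∫ x in S ∩ unitCell n, f x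
      = ∫ x in unitCell n, S.indicator f x := fun S hS f => by
    rw [setIntegral_indicator hS, inter_comm]
  rw [e1 _ himg, e1 _ hF, setIntegral_cell_comp A c hA hA']
  · congr 1
    ext x
    by_cases hx : x ∈ F
    · rw [indicator_of_mem (mem_image_of_mem _ hx), indicator_of_mem hx, divergence_conj A c φ.2.1]
    · rw [indicator_of_notMem hx, indicator_of_notMem]
      rintro ⟨y, hy, hxy⟩
      exact hx (hinj hxy ▸ hy)
  · intro v hv x
    by_cases hx : x ∈ (fun x => A x + c) '' F
    · rw [indicator_of_mem hx, indicator_of_mem ((hper v hv x).2 hx)]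
      unfold divergence
      rw [fderiv_periodic φ.2.2.1 v hv x]
    · rw [indicator_of_notMem hx, indicator_of_notMem fun h => hx ((hper v hv x).1 h)]

end Iso

theorem perimeter_congruent_le {n : ℕ} {E F : Set (EuclideanSpace ℝ (Fin n))} (hF : MeasurableSet F)
    (hFp : IsLatticePeriodic F) (h : CongruentModNull E F) :
    periodicPerimeter E ≤ periodicPerimeter F := by
  obtain ⟨g, hg, h0⟩ := h
  obtain ⟨A, c, hA, hA', hgA⟩ := cubic_form hg
  rw [perimeter_congr h0, show g = fun x => A x + c from funext hgA]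
  exact perimeter_image_le A c hA hA' hF hFp

end Crest.Agent.IT
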