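import Crest.Agent.IT.StdVar

/-! Row 214 (helper25): the standard sets: periodicity, measurability, volumes, perimeters. -/

set_option autoImplicit false
open MeasureTheory Set Crest.GeometryTopology.PeriodicPerimeter
open scoped Pointwise

noncomputable section

namespace Crest.Agent.IT

local notation "E3" => EuclideanSpace ℝ (Fin 3)

theorem int_add {n : ℕ} {v w : EuclideanSpace ℝ (Fin n)} (hv : HasIntegerCoords v)
    (hw : HasIntegerCoords w) : HasIntegerCoords (v + w) := fun i => by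
  obtain ⟨a, ha⟩ := hv i
  obtain ⟨b, hb⟩ := hw i
  exact ⟨a + b, by simp [ha, hb]⟩

theorem int_neg {n : ℕ} {v : EuclideanSpace ℝ (Fin n)} (hv : HasIntegerCoords v) :
    HasIntegerCoords (-v) := fun i => by
  obtain ⟨a, ha⟩ := hv i
  exact ⟨-a, by simp [ha]⟩

theorem periodic_of_imp {n : ℕ} {F : Set (EuclideanSpace ℝ (Fin n))}
    (h : ∀ v, HasIntegerCoords v → ∀ x ∈ F, x + v ∈ F) : IsLatticePeriodic F := by
  intro v hv x
  refine ⟨fun hx => ?_, fun hx => h v hv x hx⟩
  have := h (-v) (int_neg hv) _ hx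
  simpa using this

theorem ball_periodic (r : ℝ) : IsLatticePeriodic (periodicBall r) := by
  apply periodic_of_imp
  rintro w hw x ⟨v, hv, h⟩
  exact ⟨v + w, int_add hv hw, by simpa using h⟩

theorem tube_periodic (r : ℝ) : IsLatticePeriodic (periodicTube r) := by
  apply periodic_of_imp
  rintro w hw x ⟨a, b, h⟩
  obtain ⟨m, hm⟩ := hw 0
  obtain ⟨k, hk⟩ := hw 1
  refine ⟨a + m, b + k, ?_⟩
  simp only [PiLp.add_apply, hm, hk]
  push_cast
  convert h using 2 <;> ring

/-- fattened slab -/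
def slabN (w s : ℝ) : Set E3 := {x | ∃ a : ℤ, (a : ℝ) - s ≤ x 0 ∧ x 0 < a + w + s}

theorem slabN_zero (w : ℝ) : slabN w 0 = periodicSlab w := by
  ext x; simp [slabN, periodicSlab]

theorem slabN_periodic (w s : ℝ) : IsLatticePeriodic (slabN w s) := by
  apply periodic_of_imp
  rintro v hv x ⟨a, h1, h2⟩
  obtain ⟨m, hm⟩ := hv 0
  refine ⟨a + m, ?_, ?_⟩ <;> simp only [PiLp.add_apply, hm] <;> push_cast <;> linarith

theorem slab_periodic (w : ℝ) : IsLatticePeriodic (periodicSlab w) := slabN_zero w ▸ slabN_periodic w 0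

theorem ball_isOpen (r : ℝ) : IsOpen (periodicBall r) := by
  have : periodicBall r = ⋃ v ∈ {v : E3 | HasIntegerCoords v}, Metric.ball v r := by
    ext x; simp [periodicBall, Metric.mem_ball]
  rw [this]
  exact isOpen_biUnion fun v _ => Metric.isOpen_ball

theorem tube_isOpen (r : ℝ) : IsOpen (periodicTube r) := by
  have : periodicTube r = ⋃ a : ℤ, ⋃ b : ℤ, {x : E3 | (x 0 - a) ^ 2 + (x 1 - b) ^ 2 < r ^ 2} := by
    ext x; simp [periodicTube]
  rw [this]
  refine isOpen_iUnion fun a => isOpen_iUnion fun b => ?_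
  exact isOpen_lt (by fun_prop) continuous_const

theorem ball_meas (r : ℝ) : MeasurableSet (periodicBall r) := (ball_isOpen r).measurableSet
theorem tube_meas (r : ℝ) : MeasurableSet (periodicTube r) := (tube_isOpen r).measurableSet

theorem coord_measurable (i : Fin 3) : Measurable fun x : E3 => x i :=
  (by fun_prop : Continuous fun x : E3 => x i).measurable

theorem slabN_meas (w s : ℝ) : MeasurableSet (slabN w s) := by
  have : slabN w s = ⋃ a : ℤ, {x : E3 | (a : ℝ) - s ≤ x 0 ∧ x 0 < a + w + s} := by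
    ext x; simp [slabN]
  rw [this]
  refine MeasurableSet.iUnion fun a => ?_
  exact (measurableSet_le measurable_const (coord_measurable 0)).inter
    (measurableSet_lt (coord_measurable 0) measurable_const)

theorem slab_meas (w : ℝ) : MeasurableSet (periodicSlab w) := slabN_zero w ▸ slabN_meas w 0

theorem volume_inter_cell_le {n : ℕ} {F S : Set (EuclideanSpace ℝ (Fin n))}
    (hcov : ∀ x ∈ F, ∃ v, HasIntegerCoords v ∧ x + v ∈ S) :
    volume (F ∩ unitCell n) ≤ volume S := by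
  rw [(fund n).measure_eq_tsum S]
  refine le_trans (measure_mono ?_) (measure_iUnion_le _)
  rintro x ⟨hx, hxc⟩
  obtain ⟨v, hv, hvS⟩ := hcov x hx
  refine mem_iUnion.2 ⟨⟨-v, (mem_Lat _).2 (int_neg hv)⟩, ⟨x + v, hvS, ?_⟩, hxc⟩
  change -v + (x + v) = x
  abel

/-- the model disc times interval -/
def tubeCell (r : ℝ) : Set E3 := {x | (x 0) ^ 2 + (x 1) ^ 2 < r ^ 2 ∧ 0 ≤ x 2 ∧ x 2 < 1}

theorem tubeCell_meas (r : ℝ) : MeasurableSet (tubeCell r) := by
  have h1 : IsOpen {x : E3 | (x 0) ^ 2 + (x 1) ^ 2 < r ^ 2} := isOpen_lt (by fun_prop) continuous_const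
  exact h1.measurableSet.inter ((measurableSet_le measurable_const (coord_measurable 2)).inter
    (measurableSet_lt (coord_measurable 2) measurable_const))

theorem volume_disc (r : ℝ) (hr : 0 ≤ r) :
    volume {y : Fin 2 → ℝ | (y 0) ^ 2 + (y 1) ^ 2 < r ^ 2} = ENNReal.ofReal r ^ 2 * ENNReal.ofReal Real.pi := by
  rw [← EuclideanSpace.volume_ball_fin_two 0 r, ← (PiLp.volume_preserving_toLp (Fin 2)).measure_preimage
    measurableSet_ball.nullMeasurableSet]
  congr 1
  ext y
  simp only [mem_ofPred_eq, mem_preimage, Metric.mem_ball, dist_zero_right, EuclideanSpace.norm_eq,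
    Fin.sum_univ_two, Real.norm_eq_abs, sq_abs]
  rcases hr.eq_or_lt with h0 | h0
  · subst h0
    constructor
    · intro h
      nlinarith [sq_nonneg (y 0), sq_nonneg (y 1)]
    · intro h
      exact absurd h (not_lt.2 (Real.sqrt_nonneg _))
  · exact (Real.sqrt_lt' h0).symm

theorem volume_tubeCell (r : ℝ) (hr : 0 ≤ r) :
    volume (tubeCell r) = ENNReal.ofReal r ^ 2 * ENNReal.ofReal Real.pi := by
  rw [← (PiLp.volume_preserving_toLp (Fin 3)).measure_preimage (tubeCell_meas r).nullMeasurableSet]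
  have hpre : (WithLp.toLp 2 : (Fin 3 → ℝ) → E3) ⁻¹' tubeCell r
      = (MeasurableEquiv.piFinSuccAbove (fun _ => ℝ) (2 : Fin 3)) ⁻¹'
        (Ico (0:ℝ) 1 ×ˢ {y : Fin 2 → ℝ | (y 0) ^ 2 + (y 1) ^ 2 < r ^ 2}) := by
    ext y
    simp [tubeCell, MeasurableEquiv.piFinSuccAbove, Fin.insertNthEquiv, Fin.removeNth]
    rw [show (Fin.succAbove (2 : Fin 3) 1) = 1 from rfl]
    tauto
  rw [hpre, (volume_preserving_piFinSuccAbove (fun _ => ℝ) (2 : Fin 3)).measure_preimage_equiv]
  rw [Measure.volume_eq_prod, Measure.prod_prod, volume_disc r hr]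
  simp

/-- the model box -/
def slabCell (w s : ℝ) : Set E3 :=
  {x | (-s ≤ x 0 ∧ x 0 < w + s) ∧ (0 ≤ x 1 ∧ x 1 < 1) ∧ 0 ≤ x 2 ∧ x 2 < 1}

theorem slabCell_meas (w s : ℝ) : MeasurableSet (slabCell w s) := by
  have h : ∀ (i : Fin 3) (a b : ℝ), MeasurableSet {x : E3 | a ≤ x i ∧ x i < b} := fun i a b =>
    (measurableSet_le measurable_const (coord_measurable i)).inter
      (measurableSet_lt (coord_measurable i) measurable_const)
  exact (h 0 _ _).inter ((h 1 _ _).inter (h 2 _ _))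

theorem volume_slabCell (w s : ℝ) : volume (slabCell w s) = ENNReal.ofReal (w + 2 * s) := by
  rw [← (PiLp.volume_preserving_toLp (Fin 3)).measure_preimage (slabCell_meas w s).nullMeasurableSet]
  have hpre : (WithLp.toLp 2 : (Fin 3 → ℝ) → E3) ⁻¹' slabCell w s
      = Set.pi Set.univ fun i : Fin 3 => Ico ((![-s, 0, 0] : Fin 3 → ℝ) i) ((![w + s, 1, 1] : Fin 3 → ℝ) i) := by
    ext y
    simp [slabCell, Set.mem_pi, Fin.forall_fin_succ]
  rw [hpre, Real.volume_pi_Ico, Fin.prod_univ_three]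
  simp
  ring_nf

theorem cell_diff_lt {n : ℕ} {v w : EuclideanSpace ℝ (Fin n)} (hv : HasIntegerCoords v)
    (hw : HasIntegerCoords w) (h : ∀ i, |v i - w i| < 1) : v = w := by
  ext i
  obtain ⟨a, ha⟩ := hv i
  obtain ⟨b, hb⟩ := hw i
  have := h i
  rw [ha, hb] at this
  have h2 : |((a - b : ℤ) : ℝ)| < 1 := by push_cast; exact this
  rw [← Int.cast_abs] at h2
  have h3 : |a - b| < 1 := by exact_mod_cast h2
  have h4 : a - b = 0 := by rwa [Int.abs_lt_one_iff] at h3
  rw [ha, hb, show a = b by omega]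

/-! ### volumes -/

theorem volume_ball_le (r : ℝ) :
    volume (periodicBall r ∩ unitCell 3) ≤ ENNReal.ofReal r ^ 3 * ENNReal.ofReal (Real.pi * 4 / 3) := by
  rw [← EuclideanSpace.volume_ball_fin_three 0 r]
  apply volume_inter_cell_le
  rintro x ⟨v, hv, h⟩
  exact ⟨-v, int_neg hv, by simpa [dist_eq_norm, sub_eq_add_neg] using h⟩

theorem volume_ball_eq (r : ℝ) (hr : r ≤ 1 / 2) :
    volume (periodicBall r ∩ unitCell 3) = ENNReal.ofReal r ^ 3 * ENNReal.ofReal (Real.pi * 4 / 3) := by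
  refine le_antisymm (volume_ball_le r) ?_
  rw [← EuclideanSpace.volume_ball_fin_three 0 r]
  apply measure_le_of_packing (ball_periodic r) measurableSet_ball
  · intro x hx
    exact ⟨0, fun i => ⟨0, by simp⟩, hx⟩
  · intro g g' hg hg' x hx y hy h
    apply cell_diff_lt hg hg'
    intro i
    have h1 : g - g' = y - x := by
      rw [sub_eq_sub_iff_add_eq_add, h, add_comm]
    have h2 : ‖g - g'‖ < 1 := by
      rw [h1]
      have hx' : ‖x‖ < r := by simpa using hx
      have hy' : ‖y‖ < r := by simpa using hy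
      calc ‖y - x‖ ≤ ‖y‖ + ‖x‖ := norm_sub_le _ _
        _ < 1 := by linarith
    have h3 := PiLp.norm_apply_le (g - g') i
    simp only [PiLp.sub_apply, Real.norm_eq_abs] at h3
    linarith

theorem volume_tube_le (r : ℝ) (hr : 0 ≤ r) :
    volume (periodicTube r ∩ unitCell 3) ≤ ENNReal.ofReal r ^ 2 * ENNReal.ofReal Real.pi := by
  rw [← volume_tubeCell r hr]
  apply volume_inter_cell_le
  rintro x ⟨a, b, h⟩
  refine ⟨WithLp.toLp 2 ![-(a:ℝ), -(b:ℝ), -(⌊x 2⌋ : ℝ)], ?_, ?_, ?_, ?_⟩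
  · intro i
    fin_cases i
    · exact ⟨-a, by simp⟩
    · exact ⟨-b, by simp⟩
    · exact ⟨-⌊x 2⌋, by simp⟩
  · simpa [← sub_eq_add_neg] using h
  · have := Int.floor_le (x 2)
    simp
    linarith
  · have := Int.lt_floor_add_one (x 2)
    simp
    linarith

theorem volume_tube_eq (r : ℝ) (hr : 0 ≤ r) (hr2 : r ≤ 1 / 2) :
    volume (periodicTube r ∩ unitCell 3) = ENNReal.ofReal r ^ 2 * ENNReal.ofReal Real.pi := by
  refine le_antisymm (volume_tube_le r hr) ?_
  rw [← volume_tubeCell r hr]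
  apply measure_le_of_packing (tube_periodic r) (tubeCell_meas r)
  · intro x hx
    exact ⟨0, 0, by simpa using hx.1⟩
  · intro g g' hg hg' x hx y hy h
    apply cell_diff_lt hg hg'
    have h1 : ∀ i, g i - g' i = y i - x i := by
      intro i
      have := congrArg (fun z : E3 => z i) h
      simp only [PiLp.add_apply] at this
      linarith
    intro i
    rw [h1]
    obtain ⟨hx1, hx2, hx3⟩ := hx
    obtain ⟨hy1, hy2, hy3⟩ := hy
    have hr4 : r ^ 2 ≤ 1 / 4 := by nlinarith
    fin_cases i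
    · simp only [Fin.zero_eta, Fin.isValue]
      rw [abs_lt]
      constructor <;> nlinarith [sq_nonneg (x 1), sq_nonneg (y 1), sq_nonneg (x 0 + y 0), sq_nonneg (y 0 - x 0)]
    · simp only [Fin.mk_one, Fin.isValue]
      rw [abs_lt]
      constructor <;> nlinarith [sq_nonneg (x 0), sq_nonneg (y 0), sq_nonneg (x 1 + y 1), sq_nonneg (y 1 - x 1)]
    · simp only [Fin.reduceFinMk, Fin.isValue]
      rw [abs_lt]
      constructor <;> linarith

theorem volume_slab_le (w s : ℝ) :
    volume (slabN w s ∩ unitCell 3) ≤ ENNReal.ofReal (w + 2 * s) := by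
  rw [← volume_slabCell w s]
  apply volume_inter_cell_le
  rintro x ⟨a, h1, h2⟩
  refine ⟨WithLp.toLp 2 ![-(a:ℝ), -(⌊x 1⌋ : ℝ), -(⌊x 2⌋ : ℝ)], ?_, ⟨?_, ?_⟩, ⟨?_, ?_⟩, ?_, ?_⟩
  · intro i
    fin_cases i
    · exact ⟨-a, by simp⟩
    · exact ⟨-⌊x 1⌋, by simp⟩
    · exact ⟨-⌊x 2⌋, by simp⟩
  · simp; linarith
  · simp; linarith
  · have := Int.floor_le (x 1)
    simp
    linarith
  · have := Int.lt_floor_add_one (x 1)
    simp
    linarith
  · have := Int.floor_le (x 2)
    simp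
    linarith
  · have := Int.lt_floor_add_one (x 2)
    simp
    linarith

theorem volume_slab_eq (w : ℝ) (hw : w ≤ 1) :
    volume (periodicSlab w ∩ unitCell 3) = ENNReal.ofReal w := by
  have h0 : volume (slabN w 0 ∩ unitCell 3) ≤ ENNReal.ofReal (w + 2 * 0) := volume_slab_le w 0
  rw [slabN_zero] at h0
  refine le_antisymm (by simpa using h0) ?_
  have h1 := volume_slabCell w 0
  simp only [mul_zero, add_zero] at h1
  rw [← h1]
  apply measure_le_of_packing (slab_periodic w) (slabCell_meas w 0)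
  · intro x hx
    exact ⟨0, by simpa [slabCell] using hx.1⟩
  · intro g g' hg hg' x hx y hy h
    apply cell_diff_lt hg hg'
    have h1 : ∀ i, g i - g' i = y i - x i := by
      intro i
      have := congrArg (fun z : E3 => z i) h
      simp only [PiLp.add_apply] at this
      linarith
    intro i
    rw [h1]
    obtain ⟨⟨a1, a2⟩, ⟨a3, a4⟩, a5, a6⟩ := hx
    obtain ⟨⟨b1, b2⟩, ⟨b3, b4⟩, b5, b6⟩ := hy
    fin_cases i
    · simp only [Fin.zero_eta, Fin.isValue]
      rw [abs_lt]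
      constructor <;> linarith
    · simp only [Fin.mk_one, Fin.isValue]
      rw [abs_lt]
      constructor <;> linarith
    · simp only [Fin.reduceFinMk, Fin.isValue]
      rw [abs_lt]
      constructor <;> linarith


/-! ### periodic volumes and perimeters -/

theorem pvol_ball_le (r : ℝ) (hr : 0 ≤ r) : periodicVolume (periodicBall r) ≤ 4 / 3 * Real.pi * r ^ 3 := by
  unfold periodicVolume
  have h := ENNReal.toReal_mono (by finiteness) (volume_ball_le r)
  refine h.trans (le_of_eq ?_)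
  rw [ENNReal.toReal_mul, ENNReal.toReal_pow, ENNReal.toReal_ofReal hr,
    ENNReal.toReal_ofReal (by positivity)]
  ring

theorem pvol_ball (r : ℝ) (hr : 0 ≤ r) (hr2 : r ≤ 1 / 2) :
    periodicVolume (periodicBall r) = 4 / 3 * Real.pi * r ^ 3 := by
  unfold periodicVolume
  rw [volume_ball_eq r hr2, ENNReal.toReal_mul, ENNReal.toReal_pow, ENNReal.toReal_ofReal hr,
    ENNReal.toReal_ofReal (by positivity)]
  ring

theorem pvol_tube_le (r : ℝ) (hr : 0 ≤ r) : periodicVolume (periodicTube r) ≤ Real.pi * r ^ 2 := by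
  unfold periodicVolume
  have h := ENNReal.toReal_mono (by finiteness) (volume_tube_le r hr)
  refine h.trans (le_of_eq ?_)
  rw [ENNReal.toReal_mul, ENNReal.toReal_pow, ENNReal.toReal_ofReal hr,
    ENNReal.toReal_ofReal (by positivity)]
  ring

theorem pvol_tube (r : ℝ) (hr : 0 ≤ r) (hr2 : r ≤ 1 / 2) :
    periodicVolume (periodicTube r) = Real.pi * r ^ 2 := by
  unfold periodicVolume
  rw [volume_tube_eq r hr hr2, ENNReal.toReal_mul, ENNReal.toReal_pow, ENNReal.toReal_ofReal hr,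
    ENNReal.toReal_ofReal (by positivity)]
  ring

theorem pvol_slabN_le (w s : ℝ) (hs : 0 ≤ w + 2 * s) : periodicVolume (slabN w s) ≤ w + 2 * s := by
  unfold periodicVolume
  have h := ENNReal.toReal_mono (by finiteness) (volume_slab_le w s)
  rwa [ENNReal.toReal_ofReal hs] at h

theorem pvol_slab (w : ℝ) (hw : 0 ≤ w) (hw1 : w ≤ 1) : periodicVolume (periodicSlab w) = w := by
  unfold periodicVolume
  rw [volume_slab_eq w hw1, ENNReal.toReal_ofReal hw]

theorem per_ball_le (r : ℝ) (hr : 0 ≤ r) (hr2 : r ≤ 1 / 2) :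
    periodicPerimeter (periodicBall r) ≤ ENNReal.ofReal (4 * Real.pi * r ^ 2) := by
  apply perimeter_le (ball_meas r) _ (4 * Real.pi * (r + 1)) 1 one_pos (by positivity)
  intro t ht ht1
  refine ⟨periodicBall (r + t), ball_meas _, ball_periodic _, ?_, ?_⟩
  · rintro x ⟨v, hv, hx⟩ u hu
    refine ⟨v, hv, ?_⟩
    rw [dist_eq_norm] at hx ⊢
    calc ‖x + t • u - v‖ = ‖(x - v) + t • u‖ := by congr 1; abel
      _ ≤ ‖x - v‖ + ‖t • u‖ := norm_add_le _ _
      _ < r + t := by
        rw [norm_smul, Real.norm_of_nonneg ht.le]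
        nlinarith
  · rw [pvol_ball r hr hr2]
    refine (pvol_ball_le (r + t) (by linarith)).trans ?_
    have h3 : (r + t) ^ 3 = r ^ 3 + 3 * r ^ 2 * t + (3 * r + t) * t ^ 2 := by ring
    have h4 : (3 * r + t) * t ^ 2 ≤ (3 * r + 3) * t ^ 2 := by
      apply mul_le_mul_of_nonneg_right _ (by positivity)
      linarith
    rw [h3]
    nlinarith [Real.pi_pos, mul_le_mul_of_nonneg_left h4 (by positivity : (0:ℝ) ≤ 4 / 3 * Real.pi)]

theorem per_tube_le (r : ℝ) (hr : 0 ≤ r) (hr2 : r ≤ 1 / 2) :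
    periodicPerimeter (periodicTube r) ≤ ENNReal.ofReal (2 * Real.pi * r) := by
  apply perimeter_le (tube_meas r) _ Real.pi 1 one_pos Real.pi_pos.le
  intro t ht ht1
  refine ⟨periodicTube (r + t), tube_meas _, tube_periodic _, ?_, ?_⟩
  · rintro x ⟨a, b, hx⟩ u hu
    refine ⟨a, b, ?_⟩
    simp only [PiLp.add_apply, PiLp.smul_apply, smul_eq_mul]
    have hu2 : (u 0) ^ 2 + (u 1) ^ 2 ≤ 1 := by
      have h1 : ‖u‖ ^ 2 ≤ 1 := by
        have := norm_nonneg u
        nlinarith
      rw [EuclideanSpace.norm_sq_eq, Fin.sum_univ_three] at h1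
      simp only [Real.norm_eq_abs, sq_abs] at h1
      nlinarith [sq_nonneg (u 2)]
    set p := x 0 - a with hp
    set q := x 1 - b with hq
    have hr0 : 0 < r := by
      rcases hr.eq_or_lt with h | h
      · exfalso; rw [← h] at hx; nlinarith [sq_nonneg p, sq_nonneg q]
      · exact h
    have hcs : p * u 0 + q * u 1 ≤ r := by
      have h1 : (p * u 0 + q * u 1) ^ 2 ≤ (p ^ 2 + q ^ 2) * ((u 0) ^ 2 + (u 1) ^ 2) := by
        nlinarith [sq_nonneg (p * u 1 - q * u 0)]
      have h2 : (p * u 0 + q * u 1) ^ 2 ≤ r ^ 2 := by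
        have h3 : (p ^ 2 + q ^ 2) * ((u 0) ^ 2 + (u 1) ^ 2) ≤ (p ^ 2 + q ^ 2) * 1 :=
          mul_le_mul_of_nonneg_left hu2 (by positivity)
        linarith
      exact (abs_le_of_sq_le_sq' h2 hr).2
    have e : (x 0 + t * u 0 - a) ^ 2 + (x 1 + t * u 1 - b) ^ 2
        = (p ^ 2 + q ^ 2) + 2 * t * (p * u 0 + q * u 1) + t ^ 2 * ((u 0) ^ 2 + (u 1) ^ 2) := by
      rw [hp, hq]; ring
    rw [e]
    nlinarith [mul_le_mul_of_nonneg_left hcs (by positivity : (0:ℝ) ≤ 2 * t),
      mul_le_mul_of_nonneg_left hu2 (by positivity : (0:ℝ) ≤ t ^ 2)]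
  · rw [pvol_tube r hr hr2]
    refine (pvol_tube_le (r + t) (by linarith)).trans (le_of_eq ?_)
    ring

theorem per_slab_le (w : ℝ) (hw : 0 ≤ w) (hw1 : w ≤ 1) :
    periodicPerimeter (periodicSlab w) ≤ ENNReal.ofReal 2 := by
  apply perimeter_le (slab_meas w) _ 0 1 one_pos le_rfl
  intro t ht ht1
  refine ⟨slabN w t, slabN_meas _ _, slabN_periodic _ _, ?_, ?_⟩
  · rintro x ⟨a, h1, h2⟩ u hu
    have h3 : |u 0| ≤ 1 := by
      have := PiLp.norm_apply_le u 0
      rw [Real.norm_eq_abs] at this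
      linarith
    obtain ⟨h4, h5⟩ := abs_le.1 h3
    refine ⟨a, ?_, ?_⟩ <;> simp only [PiLp.add_apply, PiLp.smul_apply, smul_eq_mul] <;> nlinarith
  · rw [pvol_slab w hw hw1]
    refine (pvol_slabN_le w t (by positivity)).trans (le_of_eq ?_)
    ring

end Crest.Agent.IT
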