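import Crest.Agent.IT.StdBasic

/-! Row 214 (helper25): first variation inequality and the perimeter upper bound. -/

set_option autoImplicit false
open MeasureTheory Set Crest.GeometryTopology.PeriodicPerimeter
open scoped Pointwise

noncomputable section

namespace Crest.Agent.IT

local notation "E3" => EuclideanSpace ℝ (Fin 3)

theorem cell_unique {n : ℕ} {s s' g g' : EuclideanSpace ℝ (Fin n)} (hs : s ∈ unitCell n)
    (hs' : s' ∈ unitCell n) (hg : HasIntegerCoords g) (hg' : HasIntegerCoords g')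
    (h : g + s = g' + s') : g = g' := by
  ext i
  obtain ⟨m, hm⟩ := hg i
  obtain ⟨m', hm'⟩ := hg' i
  have h1 : g i + s i = g' i + s' i := by
    have := congrArg (fun z : EuclideanSpace ℝ (Fin n) => z i) h
    simpa using this
  have h2 := hs i
  have h3 := hs' i
  have h4 : ((m - m' : ℤ) : ℝ) < 1 := by push_cast; rw [hm, hm'] at h1; linarith [h2.1, h3.2]
  have h5 : (-1 : ℝ) < ((m - m' : ℤ) : ℝ) := by push_cast; rw [hm, hm'] at h1; linarith [h3.1, h2.2]
  have h6 : m - m' < 1 := by exact_mod_cast h4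
  have h7 : -1 < m - m' := by exact_mod_cast h5
  have h8 : m = m' := by omega
  rw [hm, hm', h8]

theorem integrableOn_cell {n : ℕ} {f : EuclideanSpace ℝ (Fin n) → ℝ} (hf : Continuous f)
    {S : Set (EuclideanSpace ℝ (Fin n))} (hS : S ⊆ unitCell n) : IntegrableOn f S := by
  obtain ⟨R, hR⟩ := unitCell_subset_ball n
  exact (hf.continuousOn.integrableOn_compact (isCompact_closedBall 0 R)).mono_set (hS.trans hR)

theorem continuous_div {n : ℕ} {φ : EuclideanSpace ℝ (Fin n) → EuclideanSpace ℝ (Fin n)}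
    (hφ : ContDiff ℝ 1 φ) : Continuous (divergence φ) := by
  unfold divergence
  have h1 : Continuous (fderiv ℝ φ) := hφ.continuous_fderiv (by norm_num)
  refine continuous_finsetSum _ fun i _ => ?_
  have h2 : Continuous fun x => fderiv ℝ φ x (EuclideanSpace.single i 1) := h1.clm_apply continuous_const
  fun_prop

instance instCountableLat (n : ℕ) : Countable (Lat n) :=
  inferInstanceAs (Countable (Submodule.span ℤ (Set.range (bs n))))

/-- measure of a "packing" subset of a periodic set -/
theorem measure_le_of_packing {n : ℕ} {F S : Set (EuclideanSpace ℝ (Fin n))}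
    (hF : IsLatticePeriodic F) (hS : MeasurableSet S) (hSF : S ⊆ F)
    (hd : ∀ g g', HasIntegerCoords g → HasIntegerCoords g' → ∀ x ∈ S, ∀ y ∈ S, g + x = g' + y → g = g') :
    volume S ≤ volume (F ∩ unitCell n) := by
  rw [(fund n).measure_eq_tsum S]
  have hm : ∀ g : Lat n, MeasurableSet ((g +ᵥ S) ∩ unitCell n) := fun g =>
    (hS.const_vadd g).inter (measurableSet_unitCell n)
  have hdis : Pairwise (Function.onFun Disjoint fun g : Lat n => (g +ᵥ S) ∩ unitCell n) := by
    intro g g' hgg
    refine Set.disjoint_left.2 ?_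
    rintro x ⟨⟨y, hy, rfl⟩, -⟩ ⟨⟨z, hz, hz'⟩, -⟩
    apply hgg
    have := hd g g' ((mem_Lat _).1 g.2) ((mem_Lat _).1 g'.2) y hy z hz hz'.symm
    exact Subtype.ext this
  rw [← measure_iUnion hdis hm]
  apply measure_mono
  refine iUnion_subset fun g => ?_
  rintro x ⟨⟨y, hy, rfl⟩, hx⟩
  refine ⟨?_, hx⟩
  have := (hF g ((mem_Lat _).1 g.2) y).2 (hSF hy)
  change (g : EuclideanSpace ℝ (Fin n)) + y ∈ F
  rwa [add_comm]

theorem key {φ : E3 → E3} (hφ : IsAdmissibleField φ) {E : Set E3} (hE : MeasurableSet E)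
    : ∃ C : ℝ, 0 ≤ C ∧ ∃ t0 : ℝ, 0 < t0 ∧ ∀ t : ℝ, 0 < t → t < t0 → ∀ F : Set E3,
      MeasurableSet F → IsLatticePeriodic F → (∀ x ∈ E, ∀ u : E3, ‖u‖ ≤ 1 → x + t • u ∈ F) →
      periodicVolume E + t * (∫ x in E ∩ unitCell 3, divergence φ x) - C * t ^ 2 ≤ periodicVolume F := by
  obtain ⟨hC1, hper, hn⟩ := hφ
  have hcf : Continuous (fderiv ℝ φ) := hC1.continuous_fderiv (by norm_num)
  obtain ⟨K, hK0, hK⟩ := bounded_of_periodic (fderiv ℝ φ) hcf (fderiv_periodic hper)
  have hdiff : ∀ x, DifferentiableAt ℝ φ x := fun x => (hC1.differentiable (by norm_num)) x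
  have hlip : ∀ x y, ‖φ y - φ x‖ ≤ K * ‖y - x‖ := fun x y =>
    Convex.norm_image_sub_le_of_norm_fderiv_le (s := Set.univ) (fun z _ => hdiff z) (fun z _ => hK z)
      convex_univ (mem_univ x) (mem_univ y)
  set V0 := (volume (unitCell 3)).toReal with hV0
  have hV0n : 0 ≤ V0 := ENNReal.toReal_nonneg
  refine ⟨(6 * K ^ 2 + 6 * K ^ 3) * V0, by positivity, 1 / (K + 1), by positivity, ?_⟩
  intro t ht htt F hF hFp hEF
  have htK : t * K < 1 := by
    have h1 : t * (K + 1) < 1 := by
      rw [lt_div_iff₀ (by positivity)] at htt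
      exact htt
    nlinarith
  have ht1 : t ≤ 1 := by
    have : (1:ℝ) / (K + 1) ≤ 1 := by
      rw [div_le_one (by positivity)]; linarith
    linarith
  set Φ : E3 → E3 := fun x => x + t • φ x with hΦ
  have hinj : Function.Injective Φ := by
    intro x y hxy
    by_contra hne
    have h1 : y - x = t • (φ x - φ y) := by
      have : x + t • φ x = y + t • φ y := hxy
      rw [smul_sub]
      have h2 : y - x = t • φ x - t • φ y := by
        rw [sub_eq_sub_iff_add_eq_add]
        rw [add_comm] at this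
        rw [this]
      exact h2
    have h3 : ‖y - x‖ ≤ t * (K * ‖y - x‖) := by
      calc ‖y - x‖ = ‖t • (φ x - φ y)‖ := by rw [h1]
        _ = t * ‖φ x - φ y‖ := by rw [norm_smul, Real.norm_of_nonneg ht.le]
        _ ≤ t * (K * ‖x - y‖) := mul_le_mul_of_nonneg_left (hlip y x) ht.le
        _ = t * (K * ‖y - x‖) := by rw [norm_sub_rev]
    have h4 : 0 < ‖y - x‖ := norm_pos_iff.2 (sub_ne_zero.2 (Ne.symm hne))
    nlinarith
  set S : Set E3 := E ∩ unitCell 3 with hSdef
  have hS : MeasurableSet S := hE.inter (measurableSet_unitCell 3)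
  have hScell : S ⊆ unitCell 3 := inter_subset_right
  have hSfin : volume S < ⊤ := lt_of_le_of_lt (measure_mono hScell) (volume_unitCell_lt_top 3)
  have hderiv : ∀ x ∈ S, HasFDerivWithinAt Φ
      (ContinuousLinearMap.id ℝ E3 + t • fderiv ℝ φ x) S x := fun x _ =>
    ((hasFDerivAt_id x).add ((hdiff x).hasFDerivAt.const_smul t)).hasFDerivWithinAt
  have himg := lintegral_abs_det_fderiv_eq_addHaar_image volume hS hderiv hinj.injOn
  have hmeasimg : MeasurableSet (Φ '' S) :=
    measurable_image_of_fderivWithin hS hderiv hinj.injOn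
  have hpack : volume (Φ '' S) ≤ volume (F ∩ unitCell 3) := by
    apply measure_le_of_packing hFp hmeasimg
    · rintro _ ⟨x, hx, rfl⟩
      exact hEF x hx.1 (φ x) (hn x)
    · rintro g g' hg hg' _ ⟨x, hx, rfl⟩ _ ⟨y, hy, rfl⟩ hxy
      have h1 : Φ (x + g) = Φ (y + g') := by
        simp only [hΦ, hper g hg, hper g' hg'] at hxy ⊢
        calc x + g + t • φ x = g + (x + t • φ x) := by abel
          _ = g' + (y + t • φ y) := hxy
          _ = y + g' + t • φ y := by abel
      have h2 := hinj h1
      exact cell_unique hx.2 hy.2 hg hg' (by rw [add_comm g, add_comm g']; exact h2)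
  have hFfin : volume (F ∩ unitCell 3) < ⊤ :=
    lt_of_le_of_lt (measure_mono inter_subset_right) (volume_unitCell_lt_top 3)
  have hdetc : Continuous fun x => (ContinuousLinearMap.id ℝ E3 + t • fderiv ℝ φ x).det := by
    have : Continuous fun x => (ContinuousLinearMap.id ℝ E3 + t • fderiv ℝ φ x) := by fun_prop
    exact ContinuousLinearMap.continuous_det.comp this
  have hint : (∫ x in S, |(ContinuousLinearMap.id ℝ E3 + t • fderiv ℝ φ x).det|)
      = (volume (Φ '' S)).toReal := by
    rw [integral_eq_lintegral_of_nonneg_ae (Filter.Eventually.of_forall fun x => abs_nonneg _)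
      hdetc.abs.aestronglyMeasurable, himg]
  have hlow : (∫ x in S, (1 + t * divergence φ x - (6 * K ^ 2 + 6 * K ^ 3) * t ^ 2))
      ≤ ∫ x in S, |(ContinuousLinearMap.id ℝ E3 + t • fderiv ℝ φ x).det| := by
    apply setIntegral_mono_on
    · apply integrableOn_cell _ hScell
      have := continuous_div hC1
      fun_prop
    · exact integrableOn_cell hdetc.abs hScell
    · exact hS
    · intro x _
      refine le_trans ?_ (le_abs_self _)
      exact det_lb (fderiv ℝ φ x) hK0 (hK x) ht.le ht1
  have hdc := continuous_div hC1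
  have hlow2 : (∫ x in S, (1 + t * divergence φ x - (6 * K ^ 2 + 6 * K ^ 3) * t ^ 2))
      = (volume S).toReal + t * (∫ x in S, divergence φ x)
        - (6 * K ^ 2 + 6 * K ^ 3) * t ^ 2 * (volume S).toReal := by
    rw [integral_sub, integral_add, integral_const_mul]
    · simp [Measure.real, mul_comm]
    · exact integrableOn_cell continuous_const hScell
    · exact integrableOn_cell (by fun_prop) hScell
    · exact integrableOn_cell (by fun_prop) hScell
    · exact integrableOn_cell continuous_const hScell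
  have hSV : (volume S).toReal ≤ V0 :=
    ENNReal.toReal_mono (volume_unitCell_lt_top 3).ne (measure_mono hScell)
  have hfin : (volume (Φ '' S)).toReal ≤ (volume (F ∩ unitCell 3)).toReal :=
    ENNReal.toReal_mono hFfin.ne hpack
  unfold periodicVolume
  have hq : (6 * K ^ 2 + 6 * K ^ 3) * t ^ 2 * (volume S).toReal ≤ (6 * K ^ 2 + 6 * K ^ 3) * t ^ 2 * V0 :=
    mul_le_mul_of_nonneg_left hSV (by positivity)
  have hmain := hlow2 ▸ hlow
  rw [hint] at hmain
  nlinarith [hmain, hfin, hq]

/-- Perimeter upper bound from the volume of neighbourhoods. -/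
theorem perimeter_le {E : Set E3} (hE : MeasurableSet E) (A B t1 : ℝ) (ht1 : 0 < t1) (hB : 0 ≤ B)
    (h : ∀ t : ℝ, 0 < t → t < t1 → ∃ F : Set E3, MeasurableSet F ∧ IsLatticePeriodic F ∧
      (∀ x ∈ E, ∀ u : E3, ‖u‖ ≤ 1 → x + t • u ∈ F) ∧
      periodicVolume F ≤ periodicVolume E + A * t + B * t ^ 2) :
    periodicPerimeter E ≤ ENNReal.ofReal A := by
  unfold periodicPerimeter
  refine iSup_le fun φ => ENNReal.ofReal_le_ofReal ?_
  obtain ⟨C, hC, t0, ht0, hk⟩ := key φ.2 hE
  by_contra hlt
  push Not at hlt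
  set I := ∫ x in E ∩ unitCell 3, divergence φ.1 x with hI
  set δ := I - A with hδ
  have hδ0 : 0 < δ := by linarith
  set t := min (t1 / 2) (min (t0 / 2) (δ / (2 * (B + C + 1)))) with htdef
  have hpos : 0 < t := by
    have : 0 < δ / (2 * (B + C + 1)) := by positivity
    simp only [htdef, lt_min_iff]
    exact ⟨by linarith, by linarith, this⟩
  have hlt1 : t < t1 := lt_of_le_of_lt (min_le_left _ _) (by linarith)
  have hlt0 : t < t0 := lt_of_le_of_lt ((min_le_right _ _).trans (min_le_left _ _)) (by linarith)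
  have hlt2 : t ≤ δ / (2 * (B + C + 1)) := (min_le_right _ _).trans (min_le_right _ _)
  obtain ⟨F, hF, hFp, hEF, hv⟩ := h t hpos hlt1
  have h1 := hk t hpos hlt0 F hF hFp hEF
  have h2 : t * I ≤ A * t + (B + C) * t ^ 2 := by nlinarith
  have h3 : t * (2 * (B + C + 1)) ≤ δ := by
    rwa [le_div_iff₀ (by positivity)] at hlt2
  nlinarith [mul_pos hpos hδ0]

end Crest.Agent.IT
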